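import Vale.Agent.P083.Ops

/-! The separable C*-algebra which does not embed. -/

namespace Vale.Agent.P083

open Finset TopologicalSpace Polynomial
open scoped InnerProductSpace Pointwise

lemma separable_adjoin {A : Type} [CStarAlgebra A] {s : Set A} (hs : s.Countable) :
    SeparableSpace (StarAlgebra.adjoin ℂ s).topologicalClosure := by
  have h1 : (s ∪ star s).Countable := hs.union (hs.preimage_of_injOn star_injective.injOn)
  have := h1.to_subtype
  have h2 : (Submonoid.closure (s ∪ star s) : Set A).Countable := by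
    rw [Submonoid.closure_eq_mrange]
    exact Set.countable_range _
  have h3 := h2.isSeparable.span (R := ℂ)
  rw [← StarAlgebra.adjoin_eq_span] at h3
  exact h3.closure.separableSpace

theorem exists_alg : ∃ (A : Type) (_ : CStarAlgebra A) (_ : SeparableSpace A) (σ : Aff →* A)
    (v : A) (b : M 1 → A) (y₀ : M 1), (∀ g, star (σ g) * σ g = 1) ∧ star v * v = 1 ∧
    (∀ g, σ (al g) * v = v * σ g) ∧ (∀ g y, χ (y.1 g.n) • (σ g * b (pb g.l y)) = b y) ∧
    b y₀ ≠ 0 ∧ ¬ Van 0 y₀.1 := by
  classical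
  obtain ⟨H, _, _, _, ⟨e⟩⟩ : ∃ (H : Type) (_ : NormedAddCommGroup H) (_ : InnerProductSpace ℂ H)
      (_ : CompleteSpace H), Nonempty (HilbertBasis (Set N) ℂ H) :=
    ⟨lp (fun _ : Set N => ℂ) 2, inferInstance, inferInstance, inferInstance, ⟨default⟩⟩
  have ext : ∀ {S T : H →L[ℂ] H}, (∀ U, S (e U) = T (e U)) → S = T := fun h =>
    ContinuousLinearMap.ext_on (Submodule.dense_iff_topologicalClosure_eq_top.mpr e.dense_span)
      (by rintro _ ⟨U, rfl⟩; exact h U)
  have iso : ∀ f : Set N → Set N, Function.Injective f →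
      ∃ T : H →L[ℂ] H, star T * T = 1 ∧ ∀ U, T (e U) = e (f U) := fun f hf =>
    ⟨((e.orthonormal.comp f hf).orthogonalFamily.linearIsometry.comp
      e.repr.toLinearIsometry).toContinuousLinearMap, LinearIsometry.adjoint_comp_self _, fun U => by
        simp [e.repr_self, OrthogonalFamily.linearIsometry_apply_single]⟩
  choose σ σ1 σ2 using fun g : Aff => iso (g • ·) (MulAction.injective g)
  obtain ⟨v, v1, v2⟩ := iso (mX '' ·) (Set.image_injective.mpr fun m n h => by
    rw [← dv_X m, ← dv_X n]; exact congrArg dv h)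
  let β : M 1 → H := fun y => ∑ a : F, χ a • e {n | y.1 n = a}
  let b : M 1 → H →L[ℂ] H := fun y => (innerSL ℂ (e ∅)).smulRight (β y)
  let s : Set (H →L[ℂ] H) := Set.range σ ∪ {v} ∪ Set.range b
  have hs : s.Countable :=
    ((Set.countable_range _).union (Set.countable_singleton _)).union (Set.countable_range _)
  have hm : ∀ x ∈ s, x ∈ (StarAlgebra.adjoin ℂ s).topologicalClosure := fun x hx =>
    StarSubalgebra.le_topologicalClosure _ (StarAlgebra.subset_adjoin ℂ s hx)
  have hc := (StarAlgebra.adjoin ℂ s).isClosed_topologicalClosure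
  refine ⟨(StarAlgebra.adjoin ℂ s).topologicalClosure, inferInstance, separable_adjoin hs,
    { toFun := fun g => ⟨σ g, hm _ (.inl (.inl ⟨g, rfl⟩))⟩
      map_one' := Subtype.ext (ext fun U => by simp [σ2])
      map_mul' := fun g h => Subtype.ext (ext fun U => by simp [σ2, mul_smul]) },
    ⟨v, hm _ (.inl (.inr rfl))⟩, fun y => ⟨b y, hm _ (.inr ⟨y, rfl⟩)⟩,
    ⟨kap 1, fun n => by simp [kap]⟩, fun g => Subtype.ext (σ1 g), Subtype.ext v1,
    fun g => Subtype.ext (ext fun U => ?_), fun g y => Subtype.ext ?_, fun h => ?_, fun h => ?_⟩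
  · change σ (al g) (v (e U)) = v (σ g (e U))
    rw [v2, σ2, σ2, v2, ← Set.image_smul, ← Set.image_smul, Set.image_image, Set.image_image]
    simp [smul_def, al]
  · have h1 : ∀ a : F, g • {n | (pb g.l y).1 n = a} = {n | y.1 n = a + y.1 g.n} := by
      intro a
      ext n
      obtain ⟨m, rfl⟩ := MulAction.surjective g n
      rw [Set.smul_mem_smul_set_iff]
      simp [smul_def, add_comm a]
    have h2 : χ (y.1 g.n) • σ g (β (pb g.l y)) = β y := by
      simp only [β, map_sum, map_smul, σ2, h1, smul_sum, smul_smul, ← AddChar.map_add_eq_mul,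
        add_comm (y.1 g.n)]
      exact Equiv.sum_comp (Equiv.addRight (y.1 g.n)) fun a => χ a • e {n | y.1 n = a}
    ext x
    change χ (y.1 g.n) • σ g (⟪e ∅, x⟫_ℂ • β (pb g.l y)) = ⟪e ∅, x⟫_ℂ • β y
    rw [map_smul, smul_comm, h2]
  · have h1 := congrArg (fun T : H →L[ℂ] H => ⟪e {n | kap 1 n = 0}, T (e ∅)⟫_ℂ) (congrArg Subtype.val h)
    have h2 : ∀ a : F, {n | kap 1 n = 0} = {n | kap 1 n = a} ↔ 0 = a := fun a =>
      ⟨fun h => by simpa using (Set.ext_iff.mp h 0).mp (map_zero _), fun h => h ▸ rfl⟩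
    simp [b, β, orthonormal_iff_ite.mp e.orthonormal, h2, e.orthonormal.ne_zero] at h1
  · simpa [kap, Fin.sum_univ_three] using h (Pi.single 0 1)

end Vale.Agent.P083
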