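import Vale.Agent.P083.Ops

/-! Matrix approximations for Cuntz isometries and the resulting spectral gap. -/

namespace Vale.Agent.P083

set_option linter.unusedSectionVars false

open Finset
open scoped InnerProductSpace ComplexConjugate

def words : ℕ → Finset (List Bool)
  | 0 => {[]}
  | k + 1 => (univ ×ˢ words k).map ⟨fun q => q.1 :: q.2, fun _ _ h => Prod.ext (List.cons.inj h).1
      (List.cons.inj h).2⟩

lemma len_words {k : ℕ} {α : List Bool} (h : α ∈ words k) : α.length = k := by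
  induction k generalizing α with
  | zero => simpa [words] using h
  | succ k ih =>
    obtain ⟨q, hq, rfl⟩ := mem_map.mp h
    exact congrArg (· + 1) (ih (mem_product.mp hq).2)

lemma sum_words {E : Type} [AddCommMonoid E] (k : ℕ) (φ : List Bool → E) :
    ∑ α ∈ words (k + 1), φ α = ∑ b, ∑ α ∈ words k, φ (b :: α) := by
  rw [words, sum_map, sum_product]; rfl

section alg

variable {A : Type} [Ring A] [StarRing A] [Algebra ℂ A] (S : Bool → A)

def wd (α : List Bool) : A := (α.map S).prod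

@[simp] lemma wd_nil : wd S [] = 1 := rfl
@[simp] lemma wd_cons (b : Bool) (α : List Bool) : wd S (b :: α) = S b * wd S α := rfl

def FF (φ : A →ₗ[ℂ] ℂ) (k l : ℕ) (x : A) : A :=
  ∑ α ∈ words k, ∑ β ∈ words l, φ (star (wd S α) * x * wd S β) • (wd S α * star (wd S β))

variable {S} (h1 : ∀ a b, star (S a) * S b = if a = b then 1 else 0)
include h1

lemma cancel (a b : Bool) (x : A) : star (S a) * (S b * x) = if a = b then x else 0 := by
  rw [← mul_assoc, h1]; split_ifs <;> simp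

lemma tail_zero (m : ℕ) (β : List Bool) (k : ℕ) (h : β.length ≤ k) (h' : k < m + β.length) :
    star (S false ^ k * S true) * (wd S β * (S false ^ m * S true)) = 0 := by
  induction β generalizing k with
  | nil =>
    induction k generalizing m with
    | zero =>
      obtain ⟨m, rfl⟩ : ∃ j, m = j + 1 := ⟨m - 1, by simp at h'; omega⟩
      simp [pow_succ', mul_assoc, cancel h1]
    | succ k ih =>
      obtain ⟨m, rfl⟩ : ∃ j, m = j + 1 := ⟨m - 1, by simp at h'; omega⟩
      simpa [pow_succ', mul_assoc, cancel h1] using ih m (by simp) (by simpa using h')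
  | cons b β ih =>
    obtain ⟨k, rfl⟩ : ∃ j, k = j + 1 := ⟨k - 1, by simp at h; omega⟩
    have := ih k (by simpa using h) (by simp at h'; omega)
    cases b
    · simpa [pow_succ', mul_assoc, cancel h1] using this
    · simp [pow_succ', mul_assoc, cancel h1]

lemma ortho (m : ℕ) (α β : List Bool) (h : α.length ≤ m) (h' : β.length ≤ m) :
    star (S false ^ m * S true) * (star (wd S α) * wd S β * (S false ^ m * S true)) =
      if α = β then 1 else 0 := by
  induction α generalizing β with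
  | nil =>
    cases β with
    | nil =>
      simp only [wd_nil, star_one, one_mul, if_true]
      clear h h'
      induction m with
      | zero => simp [h1]
      | succ m ih => simpa [pow_succ', mul_assoc, cancel h1] using ih
    | cons b β => simpa using tail_zero h1 m (b :: β) m h' (by simp)
  | cons a α ih =>
    cases β with
    | nil => simpa [mul_assoc] using congrArg star (tail_zero h1 m (a :: α) m h (by simp))
    | cons b β =>
      have := ih β (by simp at h; omega) (by simp at h'; omega)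
      by_cases e : a = b
      · simpa [mul_assoc, cancel h1, e] using this
      · simp [mul_assoc, cancel h1, e]

lemma FF_left (φ : A →ₗ[ℂ] ℂ) (k l : ℕ) (b : Bool) (x : A) :
    FF S φ (k + 1) l (S b * x) = S b * FF S φ k l x := by
  rw [FF, sum_words, sum_eq_single b (fun a _ h => by simp [mul_assoc, cancel h1, h]) (by simp)]
  simp [FF, mul_sum, mul_assoc, cancel h1]

lemma FF_right (φ : A →ₗ[ℂ] ℂ) (k l : ℕ) (b : Bool) (x : A) :
    FF S φ k (l + 1) (x * star (S b)) = FF S φ k l x * star (S b) := by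
  simp only [FF, sum_mul]
  refine sum_congr rfl fun α _ => ?_
  rw [sum_words, sum_eq_single b (fun a _ h => by simp [mul_assoc, cancel h1, h.symm]) (by simp)]
  simp [mul_assoc, cancel h1]

lemma FF_word {φ : A →ₗ[ℂ] ℂ} (μ ν : List Bool) (k l : ℕ) (x : A) :
    FF S φ (k + μ.length) (l + ν.length) (wd S μ * x * star (wd S ν)) =
      wd S μ * FF S φ k l x * star (wd S ν) := by
  induction μ with
  | nil =>
    induction ν with
    | nil => simp
    | cons b ν ih =>
      simp only [wd_nil, one_mul, List.length_nil, add_zero] at ih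
      simp only [wd_nil, one_mul, List.length_nil, add_zero, List.length_cons, wd_cons, star_mul,
        ← mul_assoc, ← add_assoc, FF_right h1, ih]
  | cons b μ ih =>
    simp only [List.length_cons, wd_cons, mul_assoc, ← add_assoc, FF_left h1] at ih ⊢
    rw [ih]

omit h1 in
lemma sum_wd (h2 : ∑ b, S b * star (S b) = 1) (k : ℕ) :
    ∑ α ∈ words k, wd S α * star (wd S α) = 1 := by
  induction k with
  | zero => simp [words]
  | succ k ih =>
    rw [sum_words, ← h2]
    refine sum_congr rfl fun b _ => ?_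
    simp only [wd_cons, star_mul, mul_assoc, ← mul_sum]
    simp only [← mul_assoc, ← sum_mul, ih, mul_one]

omit h1 in
lemma FF_one (h2 : ∑ b, S b * star (S b) = 1) {φ : A →ₗ[ℂ] ℂ} {m k l : ℕ}
    (hφ : ∀ α β : List Bool, α.length ≤ m → β.length ≤ m →
      φ (star (wd S α) * wd S β) = if α = β then 1 else 0) (hk : k ≤ m) (hl : l ≤ m) :
    FF S φ k l 1 = if k = l then 1 else 0 := by
  have : FF S φ k l 1 = ∑ α ∈ words k, if k = l then wd S α * star (wd S α) else 0 := by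
    refine sum_congr rfl fun α hα => ?_
    rw [sum_congr rfl fun β hβ => by
      rw [mul_one, hφ α β ((len_words hα).trans_le hk) ((len_words hβ).trans_le hl)]]
    simp only [ite_smul, one_smul, zero_smul, sum_ite_eq]
    refine if_congr ⟨fun h => (len_words hα).symm.trans (len_words h), fun h => h ▸ hα⟩ rfl rfl
  rw [this]
  split_ifs
  · exact sum_wd h2 k
  · simp

/-- the span of the words contains the generated star subalgebra -/
lemma adjoin_le [StarModule ℂ A] {x : A} (hx : x ∈ StarAlgebra.adjoin ℂ (Set.range S)) :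
    x ∈ Submodule.span ℂ {y | ∃ μ ν, y = wd S μ * star (wd S ν)} := by
  obtain ⟨P, hP⟩ : ∃ P, P = Submodule.span ℂ {y | ∃ μ ν, y = wd S μ * star (wd S ν)} := ⟨_, rfl⟩
  have hw : ∀ μ ν, wd S μ * star (wd S ν) ∈ P := fun μ ν => hP ▸ Submodule.subset_span ⟨μ, ν, rfl⟩
  have key : ∀ a : A, (∀ μ ν, a * (wd S μ * star (wd S ν)) ∈ P) → ∀ y ∈ P, a * y ∈ P := by
    intro a h y hy
    rw [hP] at hy
    induction hy using Submodule.span_induction with
    | mem y hy => obtain ⟨μ, ν, rfl⟩ := hy; exact h μ ν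
    | zero => simp
    | add y z _ _ hy hz => rw [mul_add]; exact P.add_mem hy hz
    | smul c y _ hy => rw [mul_smul_comm]; exact P.smul_mem c hy
  have : ∀ y ∈ P, x * y ∈ P := by
    change x ∈ Algebra.adjoin ℂ _ at hx
    induction hx using Algebra.adjoin_induction with
    | mem a ha =>
      refine key a fun μ ν => ?_
      rcases ha with ⟨b, rfl⟩ | ⟨b, hb⟩
      · simpa [mul_assoc] using hw (b :: μ) ν
      · obtain rfl : a = star (S b) := by rw [hb, star_star]
        cases μ with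
        | nil => simpa [wd] using hw [] (ν ++ [b])
        | cons c μ =>
          rw [wd_cons, mul_assoc, cancel h1]
          split_ifs
          exacts [hw μ ν, P.zero_mem]
    | algebraMap c => exact fun y hy => by rw [← Algebra.smul_def]; exact P.smul_mem c hy
    | add a b _ _ ha hb => exact fun y hy => by rw [add_mul]; exact P.add_mem (ha y hy) (hb y hy)
    | mul a b _ _ ha hb => exact fun y hy => by rw [mul_assoc]; exact ha _ (hb y hy)
  simpa [hP] using this 1 (by simpa using hw [] [])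

omit h1 in
def PP (φ : A →ₗ[ℂ] ℂ) (L : ℕ) (x : A) : A :=
  ∑ k ∈ range L, ∑ l ∈ range L, FF S φ (L + k) (L + l) x

lemma PP_word (h2 : ∑ b, S b * star (S b) = 1) {φ : A →ₗ[ℂ] ℂ} {L : ℕ}
    (hφ : ∀ α β : List Bool, α.length ≤ 2 * L → β.length ≤ 2 * L →
      φ (star (wd S α) * wd S β) = if α = β then 1 else 0) (μ ν : List Bool)
    (hL : μ.length + ν.length ≤ L) : ∃ c : ℕ, c ≤ L ∧ L ≤ c + (μ.length + ν.length) ∧
      PP (S := S) φ L (wd S μ * star (wd S ν)) = (c : ℂ) • (wd S μ * star (wd S ν)) := by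
  refine ⟨((range L ×ˢ range L).filter fun q => q.1 + ν.length = q.2 + μ.length).card, ?_, ?_, ?_⟩
  · conv_rhs => rw [← card_range L]
    exact card_le_card_of_injOn Prod.fst (fun q hq => (mem_product.mp (mem_filter.mp hq).1).1)
      fun q hq q' hq' e => Prod.ext e (by
        have := (mem_filter.mp hq).2; have := (mem_filter.mp hq').2; omega)
  · rw [← Nat.sub_le_iff_le_add, ← card_range (L - _)]
    refine card_le_card_of_injOn (fun j => (j + μ.length, j + ν.length)) (fun j hj => ?_)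
      fun j _ j' _ e => Nat.add_right_cancel (congrArg Prod.fst e)
    simp only [coe_range, Set.mem_Iio, coe_filter, mem_product, mem_range, Set.mem_ofPred_eq] at hj ⊢
    omega
  · rw [card_filter, Nat.cast_sum, sum_smul, sum_product]
    refine sum_congr rfl fun k hk => sum_congr rfl fun l hl => ?_
    have := FF_word h1 (φ := φ) μ ν (L + k - μ.length) (L + l - ν.length) 1
    rw [mem_range] at hk hl
    rw [mul_one, Nat.sub_add_cancel (by omega), Nat.sub_add_cancel (by omega),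
      FF_one h2 hφ (by omega) (by omega)] at this
    rw [this]
    split_ifs <;> first | omega | simp

omit h1 in
lemma PP_add (φ : A →ₗ[ℂ] ℂ) (L : ℕ) (x y : A) :
    PP (S := S) φ L (x + y) = PP (S := S) φ L x + PP (S := S) φ L y := by
  simp only [PP, FF, mul_add, add_mul, map_add, add_smul, sum_add_distrib]

omit h1 in
lemma PP_smul (φ : A →ₗ[ℂ] ℂ) (L : ℕ) (c : ℂ) (x : A) :
    PP (S := S) φ L (c • x) = c • PP (S := S) φ L x := by
  simp only [PP, FF, mul_smul_comm, smul_mul_assoc, map_smul, smul_sum, smul_eq_mul, mul_smul]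

end alg

lemma PP_bound {A : Type} [CStarAlgebra A] {S : Bool → A}
    (h1 : ∀ a b, star (S a) * S b = if a = b then 1 else 0) (h2 : ∑ b, S b * star (S b) = 1)
    {φ : ℕ → A →ₗ[ℂ] ℂ} (hφ : ∀ (L : ℕ) (α β : List Bool), α.length ≤ 2 * L → β.length ≤ 2 * L →
      φ L (star (wd S α) * wd S β) = if α = β then 1 else 0) {x : A}
    (hx : x ∈ StarAlgebra.adjoin ℂ (Set.range S)) :
    ∃ C : ℝ, ∀ᶠ L : ℕ in Filter.atTop, ‖PP (S := S) (φ L) L x - (L : ℂ) • x‖ ≤ C := by
  replace hx := adjoin_le h1 hx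
  induction hx using Submodule.span_induction with
  | mem y hy =>
    obtain ⟨μ, ν, rfl⟩ := hy
    refine ⟨(μ.length + ν.length) * ‖wd S μ * star (wd S ν)‖, ?_⟩
    filter_upwards [Filter.eventually_ge_atTop (μ.length + ν.length)] with L hL
    obtain ⟨c, c1, c2, e⟩ := PP_word h1 h2 (hφ L) μ ν hL
    rw [e, ← sub_smul, norm_smul]
    gcongr
    rw [norm_sub_rev, ← Nat.cast_sub c1, Complex.norm_natCast]
    exact_mod_cast (by omega)
  | zero => exact ⟨0, .of_forall fun L => by simp [PP, FF]⟩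
  | add y z _ _ hy hz =>
    obtain ⟨C, hC⟩ := hy
    obtain ⟨D, hD⟩ := hz
    refine ⟨C + D, ?_⟩
    filter_upwards [hC, hD] with L a b
    rw [PP_add, smul_add, add_sub_add_comm]
    exact (norm_add_le _ _).trans (add_le_add a b)
  | smul c y _ hy =>
    obtain ⟨C, hC⟩ := hy
    refine ⟨‖c‖ * C, ?_⟩
    filter_upwards [hC] with L a
    rw [PP_smul, smul_comm, ← smul_sub, norm_smul]
    gcongr

variable {H : Type} [NormedAddCommGroup H] [InnerProductSpace ℂ H] [CompleteSpace H]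

lemma gram {Q : Type} [Finite Q] (ζ : Q → H) : ∃ (n : ℕ) (z : Fin n → Q → ℂ),
    (∀ a b, ∑ k, conj (z k a) * z k b = ⟪ζ a, ζ b⟫_ℂ) ∧ ∀ k a, ζ a = 0 → z k a = 0 := by
  let W := Submodule.span ℂ (Set.range ζ)
  have : FiniteDimensional ℂ W := FiniteDimensional.span_of_finite ℂ (Set.finite_range _)
  refine ⟨_, fun k a => ⟪(stdOrthonormalBasis ℂ W k : H), ζ a⟫_ℂ, fun a b => ?_,
    fun k a h => by simp [h]⟩
  simpa only [Submodule.coe_inner, inner_conj_symm] using
    (stdOrthonormalBasis ℂ W).sum_inner_mul_inner ⟨_, Submodule.subset_span ⟨a, rfl⟩⟩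
      ⟨_, Submodule.subset_span ⟨b, rfl⟩⟩

lemma compress {I : Type} [Fintype I] (v : I → H) :
    ∃ (W : Type) (_ : NormedAddCommGroup W) (_ : InnerProductSpace ℂ W) (_ : FiniteDimensional ℂ W)
      (b : I → W) (c : (H →L[ℂ] H) → W →L[ℂ] W), Module.finrank ℂ W ≤ Fintype.card I ∧ c 1 = 1 ∧
      (∀ x, ‖c x‖ ≤ ‖x‖) ∧ ∀ x α β, ⟪b α, c x (b β)⟫_ℂ = ⟪v α, x (v β)⟫_ℂ := by
  let W := Submodule.span ℂ (Set.range v)
  have : FiniteDimensional ℂ W := FiniteDimensional.span_of_finite ℂ (Set.finite_range _)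
  refine ⟨W, inferInstance, inferInstance, this, fun α => ⟨_, Submodule.subset_span ⟨α, rfl⟩⟩,
    fun x => W.orthogonalProjectionOnto ∘L x ∘L W.subtypeL, finrank_range_le_card v, ?_,
    fun x => ?_, fun x α β => ?_⟩
  · ext; simp
  · refine ContinuousLinearMap.opNorm_le_bound _ (norm_nonneg _) fun w => ?_
    exact (W.norm_orthogonalProjectionOnto_apply_le _).trans (x.le_opNorm _)
  · simp

lemma tw_one (a : ℂ) {J : ℕ} {H : Type} [NormedAddCommGroup H] [InnerProductSpace ℂ H]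
    (η : L2 (M J) H) : tw 1 (a • 1) η = a • η := by
  ext y; simp [tw_apply]; rfl

lemma transfer {I : Type} [Fintype I] {v : I → H} (hv : Orthonormal ℂ v) (Z : I → H →L[ℂ] H)
    {J : ℕ} (hJ : 2 * Fintype.card I ≤ J + 1) {L : ℝ}
    (hL : ∑ α, Z α * star (Z α) = (L : ℂ) • 1)
    (x : Fin 5 → H →L[ℂ] H) (hx : ∀ s, ‖x s‖ ≤ 1 + 1 / 10 ^ 10) (ξ : L2 (M (J + 1)) H)
    (hξ : ∀ y, Van J y.1 → ξ y = 0) :
    ∑ s, (⟪ξ, tw (gen s) (∑ α, ∑ β, ⟪v α, x s (v β)⟫_ℂ • (Z α * star (Z β))) ξ⟫_ℂ).re ≤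
      (5 - 5 / 10 ^ 9) * (L * ‖ξ‖ ^ 2) := by
  classical
  obtain ⟨n, z, hz, hz0⟩ := gram fun q : I × M (J + 1) => star (Z q.1) (ξ q.2)
  replace hz : ∀ α β y y', ⟪ξ y, (Z α * star (Z β)) (ξ y')⟫_ℂ =
      ∑ k, conj (z k (α, y)) * z k (β, y') := fun α β y y' => by
    rw [hz]; exact (ContinuousLinearMap.adjoint_inner_left (Z α) _ _).symm
  obtain ⟨W, _, _, _, b, c, c1, c2, c3, c4⟩ := compress v
  obtain ⟨T, hT⟩ : ∃ T : Fin n → L2 (M (J + 1)) W, ∀ k y, T k y = ∑ α, z k (α, y) • b α :=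
    ⟨fun k => WithLp.toLp 2 fun y => ∑ α, z k (α, y) • b α, fun _ _ => rfl⟩
  have key : ∀ g x, ∑ k, ⟪T k, tw g (c x) (T k)⟫_ℂ =
      ⟪ξ, tw g (∑ α, ∑ β, ⟪v α, x (v β)⟫_ℂ • (Z α * star (Z β))) ξ⟫_ℂ := by
    intro g x
    simp only [PiLp.inner_apply, tw_apply, inner_smul_right]
    rw [sum_comm]
    refine sum_congr rfl fun y _ => ?_
    rw [← mul_sum]
    congr 1
    simp only [_root_.sum_apply, smul_apply, inner_sum, inner_smul_right, hz, mul_sum]
    rw [sum_congr rfl fun α _ => sum_comm, sum_comm (s := (univ : Finset I))]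
    refine sum_congr rfl fun k _ => ?_
    simp only [hT, map_sum, map_smul, sum_inner, inner_sum, inner_smul_left, inner_smul_right,
      mul_sum, c4]
    rw [sum_comm]
    exact sum_congr rfl fun α _ => sum_congr rfl fun β _ => by ring
  have h1 : ∑ k, ‖T k‖ ^ 2 = L * ‖ξ‖ ^ 2 := by
    have := key 1 1
    have e : ∀ k, tw 1 1 (T k) = T k := fun k => by simpa using tw_one 1 (T k)
    simp only [one_apply_eq_self, orthonormal_iff_ite.mp hv, ite_smul, one_smul, zero_smul,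
      sum_ite_eq, mem_univ, if_true, hL, tw_one, inner_smul_right, c2, e,
      inner_self_eq_norm_sq_to_K] at this
    apply Complex.ofReal_injective
    push_cast
    exact this
  simp only [← key, Complex.re_sum, ← h1, mul_sum]
  rw [sum_comm]
  refine sum_le_sum fun k _ => fin_gap (by omega) _ (fun s => (c3 _).trans (hx s)) _ ?_
  intro y hy
  simp [hT, hz0, hξ y hy]

lemma tw_add {J : ℕ} (g : Aff) (a b : H →L[ℂ] H) : tw (J := J) g (a + b) = tw g a + tw g b := by
  ext ξ y; simp [tw_apply]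

lemma tw_smul {J : ℕ} (g : Aff) (c : ℂ) (a : H →L[ℂ] H) : tw (J := J) g (c • a) = c • tw g a := by
  ext ξ y; simp [tw_apply, smul_comm c]

lemma tw_le {J : ℕ} (g : Aff) (a : H →L[ℂ] H) (ξ : L2 (M J) H) : ‖tw g a ξ‖ ≤ ‖a‖ * ‖ξ‖ :=
  (tw g a).le_of_opNorm_le (tw_norm g a) ξ

lemma re_aux {E : Type} [NormedAddCommGroup E] [InnerProductSpace ℂ E] {L : ℝ} (hL : 0 ≤ L)
    (ξ a d : E) (h1 : ‖a - ξ‖ ≤ ‖ξ‖ / 10 ^ 10) (h2 : ‖d‖ ≤ 2 / 10 ^ 11 * L * ‖ξ‖) :
    (1 - 12 / 10 ^ 11) * (L * ‖ξ‖ ^ 2) ≤ (⟪ξ, (L : ℂ) • a + d⟫_ℂ).re := by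
  have b1 := (Complex.abs_re_le_norm ⟪ξ, d⟫_ℂ).trans ((norm_inner_le_norm ξ d).trans
    (mul_le_mul_of_nonneg_left h2 (norm_nonneg _)))
  have b2 := (Complex.abs_re_le_norm ⟪ξ, a - ξ⟫_ℂ).trans ((norm_inner_le_norm ξ _).trans
    (mul_le_mul_of_nonneg_left h1 (norm_nonneg _)))
  rw [inner_sub_right, Complex.sub_re, ← RCLike.re_to_complex (x := ⟪ξ, ξ⟫_ℂ),
    inner_self_eq_norm_sq] at b2
  rw [inner_add_right, inner_smul_right, Complex.add_re, Complex.re_ofReal_mul]
  linarith [mul_le_mul_of_nonneg_left (neg_le_of_abs_le b2) hL, neg_le_of_abs_le b1]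

lemma re_lower {J : ℕ} (g : Aff) {u x Ψ : H →L[ℂ] H} {L : ℝ} (hL : 0 ≤ L) (ξ : L2 (M J) H)
    (h1 : ‖Ψ - (L : ℂ) • x‖ ≤ L / 10 ^ 11) (h2 : ‖x - u‖ ≤ 1 / 10 ^ 11)
    (h3 : ‖tw g u ξ - ξ‖ ≤ ‖ξ‖ / 10 ^ 10) :
    (1 - 12 / 10 ^ 11) * (L * ‖ξ‖ ^ 2) ≤ (⟪ξ, tw g Ψ ξ⟫_ℂ).re := by
  have b1 : ‖Ψ - (L : ℂ) • x + (L : ℂ) • (x - u)‖ ≤ 2 / 10 ^ 11 * L := by
    refine (norm_add_le _ _).trans ?_
    rw [norm_smul, Complex.norm_real, Real.norm_of_nonneg hL]
    linarith [mul_le_mul_of_nonneg_left h2 hL]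
  have e : Ψ = (L : ℂ) • u + (Ψ - (L : ℂ) • x + (L : ℂ) • (x - u)) := by rw [smul_sub]; abel
  rw [e, tw_add, tw_smul]
  exact re_aux hL _ _ _ h3 ((tw_le g _ ξ).trans (mul_le_mul_of_nonneg_right b1 (norm_nonneg _)))

theorem cuntz_gap {S : Bool → H →L[ℂ] H} (h1 : ∀ a b, star (S a) * S b = if a = b then 1 else 0)
    (h2 : ∑ b, S b * star (S b) = 1) (u : Fin 5 → H →L[ℂ] H)
    (hu : ∀ s, u s ∈ closure (StarAlgebra.adjoin ℂ (Set.range S) : Set (H →L[ℂ] H)))
    (hn : ∀ s, ‖u s‖ ≤ 1 + 1 / 10 ^ 11) :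
    ∃ J, ∀ ξ : L2 (M (J + 1)) H, (∀ y, Van J y.1 → ξ y = 0) →
      (∀ s, ‖tw (gen s) (u s) ξ - ξ‖ ≤ ‖ξ‖ / 10 ^ 10) → ξ = 0 := by
  rcases subsingleton_or_nontrivial H with _ | _
  · exact ⟨0, fun ξ _ _ => by ext; exact Subsingleton.elim _ _⟩
  obtain ⟨h, hh⟩ := exists_norm_eq H zero_le_one
  obtain ⟨t, ht⟩ : ∃ t : ℕ → H, ∀ L, t L = (S false ^ (2 * L) * S true) h := ⟨_, fun _ => rfl⟩
  obtain ⟨φ, hφ0⟩ : ∃ φ : ℕ → (H →L[ℂ] H) →ₗ[ℂ] ℂ, ∀ L z, φ L z = ⟪t L, z (t L)⟫_ℂ :=
    ⟨fun L => (innerSL ℂ (t L)).toLinearMap ∘ₗ (ContinuousLinearMap.apply ℂ H (t L)).toLinearMap,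
      fun _ _ => rfl⟩
  have hφ : ∀ L (α β : List Bool), α.length ≤ 2 * L → β.length ≤ 2 * L →
      φ L (star (wd S α) * wd S β) = if α = β then 1 else 0 := by
    intro L α β a b
    have := congrArg (fun z : H →L[ℂ] H => ⟪h, z h⟫_ℂ) (ortho h1 _ α β a b)
    rw [hφ0, ht, ← ContinuousLinearMap.adjoint_inner_right]
    refine Eq.trans this ?_
    split_ifs <;> simp [hh]
  have hx := fun s => Metric.mem_closure_iff.mp (hu s) (1 / 10 ^ 11) (by norm_num)
  choose x hx1 hx2 using hx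
  replace hx2 : ∀ s, ‖x s - u s‖ ≤ 1 / 10 ^ 11 := fun s => by
    rw [← dist_eq_norm, dist_comm]; exact (hx2 s).le
  choose C hC using fun s => PP_bound h1 h2 hφ (hx1 s)
  obtain ⟨L, hL1, hL2, hL3⟩ : ∃ L : ℕ, 1 ≤ L ∧
      (∀ s, ‖PP (S := S) (φ L) L (x s) - (L : ℂ) • x s‖ ≤ C s) ∧
      ∀ s, 10 ^ 11 * C s ≤ L := ((Filter.eventually_ge_atTop 1).and
    ((Filter.eventually_all.mpr hC).and (Filter.eventually_all.mpr fun s =>
      tendsto_natCast_atTop_atTop.eventually_ge_atTop _))).exists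
  obtain ⟨I, hI0⟩ : ∃ I, I = (range L).biUnion fun k => words (L + k) := ⟨_, rfl⟩
  have hI : ∀ f : List Bool → H →L[ℂ] H,
      ∑ α : I, f α = ∑ k ∈ range L, ∑ α ∈ words (L + k), f α := fun f => by
    rw [sum_coe_sort I f, hI0, sum_biUnion fun k _ l _ h => disjoint_left.mpr fun α a b => h (by
      have := len_words a; have := len_words b; omega)]
  have hI2 : ∀ α : I, α.1.length ≤ 2 * L := fun α => by
    obtain ⟨k, hk, h⟩ := mem_biUnion.mp (hI0.le α.2)
    have := len_words h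
    have := mem_range.mp hk
    omega
  have ha : ∀ α β z, ⟪wd S α (t L), z (wd S β (t L))⟫_ℂ = φ L (star (wd S α) * z * wd S β) :=
    fun α β z => by rw [hφ0, ← ContinuousLinearMap.adjoint_inner_right]; rfl
  refine ⟨2 * Fintype.card I, fun ξ s1 s2 => ?_⟩
  have k1 := transfer (v := fun α : I => wd S α (t L)) (orthonormal_iff_ite.mpr fun α β => by
    have := ha α β 1
    rw [mul_one, hφ L _ _ (hI2 α) (hI2 β)] at this
    exact this.trans (if_congr Subtype.ext_iff.symm rfl rfl)) (fun α : I => wd S α)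
    (Nat.le_succ _) (L := L) (by
      rw [hI fun α => wd S α * star (wd S α)]
      simp [sum_wd h2, Nat.cast_smul_eq_nsmul]) x (fun s => by
      linarith [hx2 s, hn s, norm_sub_norm_le (x s) (u s)]) ξ s1
  have k2 : ∀ s, ∑ α : I, ∑ β : I, ⟪wd S α (t L), x s (wd S β (t L))⟫_ℂ •
      (wd S α * star (wd S β)) = PP (S := S) (φ L) L (x s) := fun s => by
    simp only [ha, PP, FF]
    rw [hI fun α => ∑ β : I, φ L (star (wd S α) * x s * wd S β) • (wd S α * star (wd S β))]
    refine sum_congr rfl fun k _ => ?_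
    rw [sum_comm (s := range L)]
    exact sum_congr rfl fun α _ =>
      hI fun β => φ L (star (wd S α) * x s * wd S β) • (wd S α * star (wd S β))
  simp only [k2] at k1
  have hL : (1 : ℝ) ≤ L := by exact_mod_cast hL1
  have k4 := sum_le_sum fun s (_ : s ∈ univ) => re_lower (gen s) (L := L) (by linarith) ξ
    ((hL2 s).trans (by linarith [hL3 s])) (hx2 s) (s2 s)
  rw [sum_const, card_univ, Fintype.card_fin, nsmul_eq_mul] at k4
  have k5 : (L : ℝ) * ‖ξ‖ ^ 2 ≤ 0 := by push_cast at k4; linarith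
  have k6 : ‖ξ‖ ^ 2 ≤ 0 := by nlinarith [sq_nonneg ‖ξ‖]
  simpa using k6

end Vale.Agent.P083
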