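import Mathlib

/-! The norm ultrapower of a unital C*-algebra. -/

namespace Vale.Agent.P083

open Filter Topology
open scoped ENNReal

variable (ω : Ultrafilter ℕ) (B : Type) [CStarAlgebra B] [Nontrivial B]

/-- norm-bounded sequences in `B` -/
abbrev Linf : Type := lp (fun _ : ℕ => B) ∞

/-- the sequences whose norm tends to zero along `ω` -/
def nullIdeal : Ideal (Linf B) where
  carrier := {b | Tendsto (fun n => ‖b n‖) ω (𝓝 0)}
  add_mem' := fun {a b} ha hb => squeeze_zero (fun _ => norm_nonneg _)
    (fun n => norm_add_le (a n) (b n)) (by simpa using Tendsto.add ha hb)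
  zero_mem' := by simp
  smul_mem' := fun a b hb => squeeze_zero (fun _ => norm_nonneg _)
    (fun n => norm_mul_le_of_le (lp.norm_apply_le_norm ENNReal.top_ne_zero a n) (le_refl ‖b n‖))
    (by simpa using Tendsto.const_mul ‖a‖ hb)

instance : (nullIdeal ω B).IsTwoSided := ⟨fun {b} a hb => squeeze_zero (fun _ => norm_nonneg _)
  (fun n => norm_mul_le_of_le (le_refl ‖b n‖) (lp.norm_apply_le_norm ENNReal.top_ne_zero a n))
  (by simpa using Tendsto.mul_const ‖a‖ hb)⟩

/-- the norm ultrapower -/
abbrev Ultrapower : Type := Linf B ⧸ nullIdeal ω B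

/-- the involution induced by the coordinatewise involution -/
noncomputable instance : Star (Ultrapower ω B) := ⟨Quotient.map' star fun a b h => by
  rw [Submodule.quotientRel_def] at h ⊢
  rw [← star_sub]
  exact Tendsto.congr (fun n => (norm_star _).symm) h⟩

end Vale.Agent.P083
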