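import Mathlib

/-! Norming representations and ultraproducts of Hilbert spaces. -/

namespace Vale.Agent.P083

open Filter Topology UniformSpace
open scoped InnerProductSpace ComplexOrder

theorem exists_rep {B : Type} [CStarAlgebra B] [Nontrivial B] (b : B) :
    ∃ (H : Type) (_ : NormedAddCommGroup H) (_ : InnerProductSpace ℂ H) (_ : CompleteSpace H)
      (r : B →⋆ₐ[ℂ] H →L[ℂ] H) (Ω : H), ‖Ω‖ = 1 ∧ ‖r b Ω‖ = ‖b‖ := by
  let _ := CStarAlgebra.spectralOrder B
  have := CStarAlgebra.spectralOrderedRing B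
  obtain ⟨g, g1, g2⟩ := exists_dual_vector'' ℂ (1 + star b * b)
  have hg : ∀ x, ‖g x‖ ≤ ‖x‖ := fun x => by simpa using g.le_of_opNorm_le g1 x
  have h1 : 1 + ‖star b * b‖ ≤ ‖1 + star b * b‖ := by
    have := spectrum.add_mem_add_iff (r := ‖star b * b‖) (s := (1 : ℝ)).mpr
      (CStarAlgebra.norm_mem_spectrum_of_nonneg (star_mul_self_nonneg b))
    rw [map_one] at this
    simpa [add_comm, abs_of_nonneg (add_nonneg zero_le_one (norm_nonneg (star b * b)))] using
      spectrum.norm_le_norm_of_mem this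
  have h2 := congrArg Complex.re g2
  rw [map_add, Complex.add_re] at h2
  have h3 := (Complex.re_le_norm _).trans (hg 1)
  have h4 := (Complex.re_le_norm _).trans (hg (star b * b))
  rw [norm_one] at h3
  have h5 : (g 1).re = 1 := by simp at h2; linarith
  have h6 : (g (star b * b)).re = ‖b‖ ^ 2 := by
    rw [sq, ← CStarRing.norm_star_mul_self]; simp at h2; linarith
  have h7 : g 1 = 1 := by
    have := hg 1
    rw [norm_one] at this
    have h := Complex.sq_norm (g 1)
    rw [Complex.normSq_apply, h5] at h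
    refine Complex.ext h5 ?_
    have : (g 1).im * (g 1).im ≤ 0 := by nlinarith [norm_nonneg (g 1)]
    simpa using mul_self_eq_zero.mp (le_antisymm this (mul_self_nonneg _))
  have pos : ∀ a : B, 0 ≤ a → 0 ≤ g a := by
    intro a ha
    have k1 : ∀ t : ℝ, 2 * t * (g a).im ≤ ‖a‖ ^ 2 := by
      intro t
      have e : star (a + (t * Complex.I : ℂ) • (1 : B)) * (a + (t * Complex.I : ℂ) • 1) =
          a * a + (t ^ 2 : ℂ) • 1 := by
        simp only [star_add, ha.isSelfAdjoint.star_eq, star_smul, star_one, mul_add, add_mul,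
          smul_mul_assoc, mul_smul_comm, mul_one, one_mul, smul_add, smul_smul, star_mul',
          Complex.star_def, Complex.conj_ofReal, Complex.conj_I]
        rw [show (t * Complex.I * (t * -Complex.I) : ℂ) = t ^ 2 by
          linear_combination (-t ^ 2 : ℂ) * Complex.I_mul_I]
        module
      have k2 : ‖a + (t * Complex.I : ℂ) • (1 : B)‖ ^ 2 ≤ ‖a‖ ^ 2 + t ^ 2 := by
        rw [sq, ← CStarRing.norm_star_mul_self, e]
        refine (norm_add_le _ _).trans (add_le_add (sq ‖a‖ ▸ norm_mul_le _ _) ?_)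
        simp [norm_smul]
      have k3 : ‖g (a + (t * Complex.I : ℂ) • (1 : B))‖ ^ 2 ≤ _ :=
        (pow_le_pow_left₀ (norm_nonneg _) (hg _) 2).trans k2
      rw [Complex.sq_norm, Complex.normSq_apply, map_add, map_smul, h7] at k3
      simp at k3
      nlinarith [mul_self_nonneg (g a).re, mul_self_nonneg (g a).im]
    have k4 : (g a).im = 0 := by
      by_contra hc
      have := k1 ((‖a‖ ^ 2 + 1) / (g a).im)
      rw [mul_assoc, div_mul_cancel₀ _ hc] at this
      nlinarith [sq_nonneg ‖a‖]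
    have k5 : ‖algebraMap ℝ B ‖a‖ - a‖ ≤ ‖a‖ :=
      (CStarAlgebra.norm_le_iff_le_algebraMap _ (norm_nonneg a) (sub_nonneg.mpr
        (IsSelfAdjoint.le_algebraMap_norm_self ha.isSelfAdjoint))).mpr (sub_le_self _ ha)
    have k6 := (Complex.re_le_norm _).trans ((hg _).trans k5)
    rw [Algebra.algebraMap_eq_smul_one, ← Complex.coe_smul, map_sub, map_smul, h7] at k6
    exact Complex.nonneg_iff.mpr ⟨by simpa using k6, k4.symm⟩
  obtain ⟨f, hf⟩ : ∃ f : B →ₚ[ℂ] ℂ, ∀ x, f x = g x :=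
    ⟨PositiveLinearMap.mk₀ g.toLinearMap pos, fun _ => rfl⟩
  refine ⟨f.GNS, inferInstance, inferInstance, inferInstance, f.gnsStarAlgHom,
    (f.toPreGNS 1 : f.PreGNS), ?_, ?_⟩
  · rw [Completion.norm_coe, f.preGNS_norm_def]
    simp [hf, h7]
  · change ‖f.gnsNonUnitalStarAlgHom b _‖ = _
    rw [f.gnsNonUnitalStarAlgHom_apply_coe, Completion.norm_coe, f.preGNS_norm_def]
    simp [hf, h6]

variable (K : ℕ → Type) [∀ n, NormedAddCommGroup (K n)] [∀ n, InnerProductSpace ℂ (K n)]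

def bdd : Submodule ℂ (∀ n, K n) where
  carrier := {x | ∃ C, ∀ n, ‖x n‖ ≤ C}
  add_mem' := fun ⟨C, hC⟩ ⟨D, hD⟩ => ⟨C + D, fun n => norm_add_le_of_le (hC n) (hD n)⟩
  zero_mem' := ⟨0, fun n => by simp⟩
  smul_mem' := fun c _ ⟨C, hC⟩ => ⟨‖c‖ * C, fun n => by
    rw [Pi.smul_apply, norm_smul]; gcongr; exact hC n⟩

def bop : Subalgebra ℂ (∀ n, K n →L[ℂ] K n) where
  carrier := {x | ∃ C, ∀ n, ‖x n‖ ≤ C}
  add_mem' := fun ⟨C, hC⟩ ⟨D, hD⟩ => ⟨C + D, fun n => norm_add_le_of_le (hC n) (hD n)⟩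
  mul_mem' := fun ⟨C, hC⟩ ⟨D, hD⟩ => ⟨C * D, fun n => norm_mul_le_of_le (hC n) (hD n)⟩
  algebraMap_mem' c := ⟨‖c‖, fun n => by
    rw [Pi.algebraMap_apply, Algebra.algebraMap_eq_smul_one, norm_smul]
    exact mul_le_of_le_one_right (norm_nonneg _) ContinuousLinearMap.norm_id_le⟩

variable {K}

def app (T : bop K) (x : bdd K) : bdd K := ⟨fun n => T.1 n (x.1 n), by
  obtain ⟨C, hC⟩ := T.2
  obtain ⟨D, hD⟩ := x.2
  exact ⟨C * D, fun n => (T.1 n).le_of_opNorm_le_of_le (hC n) (hD n)⟩⟩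

lemma bop_mul (S T : bop K) (n : ℕ) (ξ : K n) : (S * T).1 n ξ = S.1 n (T.1 n ξ) := (rfl)
lemma bop_add (S T : bop K) (n : ℕ) (ξ : K n) : (S + T).1 n ξ = S.1 n ξ + T.1 n ξ := (rfl)
lemma bop_smul (c : ℂ) (T : bop K) (n : ℕ) (ξ : K n) : (c • T).1 n ξ = c • T.1 n ξ := (rfl)
lemma bop_one (n : ℕ) (ξ : K n) : (1 : bop K).1 n ξ = ξ := (rfl)
lemma bop_zero (n : ℕ) (ξ : K n) : (0 : bop K).1 n ξ = 0 := (rfl)
lemma app_apply (T : bop K) (x : bdd K) (n : ℕ) : (app T x).1 n = T.1 n (x.1 n) := (rfl)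
lemma bdd_sub (x y : bdd K) (n : ℕ) : (x - y).1 n = x.1 n - y.1 n := (rfl)

lemma bop_sum {ι : Type} (s : Finset ι) (T : ι → bop K) (n : ℕ) (ξ : K n) :
    (∑ i ∈ s, T i).1 n ξ = ∑ i ∈ s, (T i).1 n ξ := by
  induction s using Finset.cons_induction with
  | empty => rfl
  | cons a s h ih => rw [Finset.sum_cons, Finset.sum_cons, bop_add, ih]

variable (K) (ω : Ultrafilter ℕ)

def PreU (_ : Ultrafilter ℕ) : Type := bdd K

noncomputable instance : AddCommGroup (PreU K ω) := inferInstanceAs (AddCommGroup (bdd K))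
noncomputable instance : Module ℂ (PreU K ω) := inferInstanceAs (Module ℂ (bdd K))

variable {K}

lemma tendsto_inner (x y : bdd K) : Tendsto (fun n => ⟪x.1 n, y.1 n⟫_ℂ) ω
    (𝓝 (limUnder ω fun n => ⟪x.1 n, y.1 n⟫_ℂ)) := by
  obtain ⟨C, hC⟩ := x.2
  obtain ⟨D, hD⟩ := y.2
  obtain ⟨z, -, hz⟩ := (isCompact_closedBall (0 : ℂ) (C * D)).ultrafilter_le_nhds
    (ω.map fun n => ⟪x.1 n, y.1 n⟫_ℂ) (le_principal_iff.mpr (mem_map.mpr <| univ_mem' fun n => by
      simpa using (norm_inner_le_norm _ _).trans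
        (mul_le_mul (hC n) (hD n) (norm_nonneg _) ((norm_nonneg _).trans (hC n)))))
  exact tendsto_nhds_limUnder ⟨z, hz⟩

variable (K)

noncomputable abbrev preCore : PreInnerProductSpace.Core ℂ (PreU K ω) where
  inner x y := limUnder ω fun n => ⟪x.1 n, y.1 n⟫_ℂ
  conj_inner_symm x y := tendsto_nhds_unique
    ((Complex.continuous_conj.tendsto _).comp (tendsto_inner ω y x))
    ((tendsto_inner ω x y).congr fun _ => (inner_conj_symm _ _).symm)
  re_inner_nonneg x := ge_of_tendsto' ((Complex.continuous_re.tendsto _).comp (tendsto_inner ω x x))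
    fun _ => inner_self_nonneg (𝕜 := ℂ)
  add_left x y z := tendsto_nhds_unique (tendsto_inner ω _ z)
    (((tendsto_inner ω x z).add (tendsto_inner ω y z)).congr fun n =>
      (inner_add_left (x.1 n) (y.1 n) (z.1 n)).symm)
  smul_left x y c := tendsto_nhds_unique (tendsto_inner ω (c • x : bdd K) y)
    (((tendsto_inner ω x y).const_mul (starRingEnd ℂ c)).congr fun n =>
      (inner_smul_left (x.1 n) (y.1 n) c).symm)

noncomputable instance : SeminormedAddCommGroup (PreU K ω) :=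
  InnerProductSpace.Core.toSeminormedAddCommGroup (c := preCore K ω)
noncomputable instance : InnerProductSpace ℂ (PreU K ω) := InnerProductSpace.ofCore (preCore K ω)

variable {K}

lemma tendsto_norm (x : PreU K ω) : Tendsto (fun n => ‖x.1 n‖) ω (𝓝 ‖x‖) :=
  ((Real.continuous_sqrt.tendsto _).comp ((Complex.continuous_re.tendsto _).comp
    (tendsto_inner ω x x))).congr fun n => (norm_eq_sqrt_re_inner (𝕜 := ℂ) (x.1 n)).symm

def appU (T : bop K) (x : PreU K ω) : PreU K ω := app T x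

lemma app_le (T : bop K) {C : ℝ} (h : ∀ ε > 0, ∀ᶠ n in ω, ‖T.1 n‖ ≤ C + ε) (x : PreU K ω) :
    ‖appU ω T x‖ ≤ C * ‖x‖ := by
  have h1 : ∀ ε > 0, ‖appU ω T x‖ ≤ (C + ε) * ‖x‖ := fun ε hε =>
    le_of_tendsto_of_tendsto (tendsto_norm ω (appU ω T x)) ((tendsto_norm ω x).const_mul _)
      ((h ε hε).mono fun n hn => (T.1 n).le_of_opNorm_le hn _)
  refine ge_of_tendsto (f := fun ε => (C + ε) * ‖x‖) (x := 𝓝[>] 0) ?_
    (eventually_nhdsWithin_of_forall h1)
  refine tendsto_nhdsWithin_of_tendsto_nhds (Continuous.tendsto' (by fun_prop) _ _ (by simp))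

noncomputable def act (T : bop K) : PreU K ω →L[ℂ] PreU K ω :=
  LinearMap.mkContinuousOfExistsBound
    { toFun := appU ω T
      map_add' := fun x y => Subtype.ext (funext fun n => map_add (T.1 n) (x.1 n) (y.1 n))
      map_smul' := fun c x => Subtype.ext (funext fun n => map_smul (T.1 n) c (x.1 n)) } (by
    obtain ⟨C, hC⟩ := T.2
    exact ⟨C, app_le ω T fun ε hε => .of_forall fun n => by linarith [hC n]⟩)

variable (K)

theorem exists_ultra :
    ∃ (E : Type) (_ : NormedAddCommGroup E) (_ : InnerProductSpace ℂ E) (_ : CompleteSpace E)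
      (j : bdd K →ₗ[ℂ] E) (P : bop K →ₐ[ℂ] E →L[ℂ] E), DenseRange j ∧
      (∀ x, Tendsto (fun n => ‖x.1 n‖) ω (𝓝 ‖j x‖)) ∧ (∀ T x, P T (j x) = j (app T x)) ∧
      ∀ T C, (∀ ε > 0, ∀ᶠ n in ω, ‖T.1 n‖ ≤ C + ε) → ∀ η, ‖P T η‖ ≤ C * ‖η‖ := by
  have key : ∀ {S T : Completion (PreU K ω) →L[ℂ] Completion (PreU K ω)},
      (∀ x : PreU K ω, S x = T x) → S = T := fun {S T} h =>
    DFunLike.coe_injective (Completion.ext S.continuous T.continuous h)
  have e : ∀ T (x : PreU K ω), (act ω T).completion x = appU ω T x := fun T x =>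
    ContinuousLinearMap.completion_apply_coe _ _
  refine ⟨Completion (PreU K ω), inferInstance, inferInstance, inferInstance,
    (Completion.toComplL : PreU K ω →L[ℂ] _).toLinearMap, AlgHom.ofLinearMap
      { toFun := fun T => (act ω T).completion
        map_add' := fun S T => key fun x => ?_
        map_smul' := fun c T => key fun x => ?_ } (key fun x => ?_) fun S T => key fun x => ?_,
    Completion.denseRange_coe (α := PreU K ω), fun x => ?_, e, fun T C h η => ?_⟩
  · rw [add_apply, e, e, e, ← Completion.coe_add]; rfl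
  · rw [smul_apply, e, e, ← Completion.coe_smul]; rfl
  · exact e 1 x
  · simp only [LinearMap.coe_mk, AddHom.coe_mk, mul_apply_eq_comp, e]; rfl
  · exact (Completion.norm_coe (E := PreU K ω) x).symm ▸ tendsto_norm ω x
  · change ‖(act ω T).completion η‖ ≤ _
    induction η using Completion.induction_on with
    | hp => exact isClosed_le (by fun_prop) (by fun_prop)
    | ih x => rw [e, Completion.norm_coe, Completion.norm_coe]; exact app_le ω T h x

end Vale.Agent.P083
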