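import Vale.Agent.P083.Cuntz
import Vale.Agent.P083.Ultra

/-! The induction step, carried out in an ultraproduct. -/

namespace Vale.Agent.P083

set_option linter.unusedSectionVars false

open Finset Filter Topology

lemma al_lin (l : N ≃ₗ[R] N) : al (lin l) = lin l := Aff.ext (smul_zero (Polynomial.X : R)) rfl

lemma abstract_inv {E : Type} [NormedAddCommGroup E] [InnerProductSpace ℂ E]
    (π : Aff →* E →L[ℂ] E) (V p : E →L[ℂ] E) (h1 : ∀ g, π (al g) * V = V * π g)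
    (h2 : ∀ g, π g * p = p * π g) (η : E) (k1 : ∀ s, π (gen s) η = η) (s : Fin 5) :
    π (gen s) (((∑ c, π (tr (cst c)) * V) * p) η) = ((∑ c, π (tr (cst c)) * V) * p) η := by
  have k3 : ∀ s, gen s ∈ stab π (p η) := fun s =>
    show π (gen s) (p η) = p η by rw [← mul_apply_eq_comp, h2, mul_apply_eq_comp, k1]
  have k4 : ∀ g ∈ stab π (p η), π (al g) (V (p η)) = V (p η) := fun g hg => by
    rw [← mul_apply_eq_comp, h1, mul_apply_eq_comp, show π g (p η) = p η from hg]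
  have k6 := k4 _ (lin_mem k3 (k3 s))
  rw [al_lin] at k6
  simp only [mul_apply_eq_comp, _root_.sum_apply]
  simpa only [ContinuousLinearMap.smul_def] using
    induce π (w := V (p η)) (fun n => k4 (tr n) (tr_mem k3 n)) k6

lemma abstract_step {E : Type} [NormedAddCommGroup E] [InnerProductSpace ℂ E] [CompleteSpace E]
    (π : Aff →* E →L[ℂ] E) (hπ : ∀ g ξ, ‖π g ξ‖ ≤ ‖ξ‖) (V p : E →L[ℂ] E)
    (h1 : ∀ g, π (al g) * V = V * π g) (h2 : ∀ g, π g * p = p * π g) (h3 : ∀ η, ‖p η‖ ≤ ‖η‖)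
    {Ω : E} (h4 : ‖Ω‖ = 1) (h5 : p Ω = Ω) (h6 : ∀ s, ‖π (gen s) Ω - Ω‖ ≤ 1 / 10 ^ 10) :
    ∃ η, p η ≠ 0 ∧ ∀ s, π (gen s) (((∑ c, π (tr (cst c)) * V) * p) η) =
      ((∑ c, π (tr (cst c)) * V) * p) η := by
  obtain ⟨η, k1, k2⟩ := kazhdan π hπ gen_101 gen_heis h6
  refine ⟨η, fun h => ?_, abstract_inv π V p h1 h2 η k1⟩
  have := h3 (Ω - η)
  rw [map_sub, h, h5, sub_zero] at this
  linarith

lemma sum_chi (c : Fin 3 → F) :
    ∑ a : Fin 3 → F, χ (∑ k, a k * c k) = if c = 0 then 101 ^ 3 else 0 := by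
  have h1 : ∀ a : Fin 3 → F, χ (∑ k, a k * c k) = ∏ k, χ (a k * c k) := fun a => by
    simp only [Fin.sum_univ_three, Fin.prod_univ_three, AddChar.map_add_eq_mul]
  have h2 := Finset.prod_univ_sum (fun _ : Fin 3 => (univ : Finset F)) fun k b => χ (b * c k)
  rw [show Fintype.piFinset (fun _ : Fin 3 => (univ : Finset F)) = univ by ext; simp] at h2
  simp only [h1, ← h2]
  simp only [χ, AddChar.sum_mulShift _ (ZMod.isPrimitive_stdAddChar 101), funext_iff]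
  simp [prod_ite_zero]

def Q (J : ℕ) {H : Type} [NormedAddCommGroup H] [InnerProductSpace ℂ H] (u : Fin 5 → H →L[ℂ] H)
    (j : ℕ) : Prop := ∃ ξ : L2 (M (J + 1)) H, (∀ y, ¬ Lev j y.1 → ξ y = 0) ∧
      ∀ s, ‖tw (gen s) (u s) ξ - ξ‖ < ‖ξ‖ / 10 ^ 10

lemma start (J : ℕ) {H : Type} [NormedAddCommGroup H] [InnerProductSpace ℂ H]
    (u : Fin 5 → H →L[ℂ] H) (β : M 1 → H) {y₀ : M 1} (h0 : ¬ Van 0 y₀.1)
    (h : ∀ s, ∑ y : M 1, ‖χ (y.1 (gen s).n) • u s (β (pb (gen s).l y)) - β y‖ ^ 2 <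
      (‖β y₀‖ / 10 ^ 10) ^ 2) : Q J u 0 := by
  classical
  obtain ⟨ξ, hξ⟩ : ∃ ξ : L2 (M (J + 1)) H, ∀ y, ξ y = if h : Lev 0 y.1 then β ⟨y.1, h.1⟩ else 0 :=
    ⟨WithLp.toLp 2 _, fun _ => rfl⟩
  let e : M 1 → M (J + 1) := fun y => ⟨y.1, y.2.mono (by omega)⟩
  refine ⟨ξ, fun y hy => by rw [hξ, dif_neg hy], fun s => lt_of_pow_lt_pow_left₀ 2 (by positivity)
    (lt_of_le_of_lt ?_ ((h s).trans_le ?_))⟩
  · rw [PiLp.norm_sq_eq_of_L2, ← sum_subset (subset_univ (univ.image e)) fun y _ hy => ?_]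
    · refine (sum_image_le_of_nonneg fun _ _ => sq_nonneg _).trans (sum_le_sum fun y _ => ?_)
      simp only [PiLp.sub_apply, tw_apply, hξ, lev_pb]
      split_ifs with a
      · exact le_rfl
      · simp
    · have : ¬ Lev 0 y.1 := fun a => hy (mem_image.mpr ⟨⟨y.1, a.1⟩, mem_univ _, rfl⟩)
      simp [tw_apply, hξ, lev_pb, this]
  · gcongr
    have := PiLp.norm_apply_le ξ (e y₀)
    rwa [hξ, dif_pos ⟨y₀.2, h0⟩] at this

variable {H : ℕ → Type} [∀ n, NormedAddCommGroup (H n)] [∀ n, InnerProductSpace ℂ (H n)] {J : ℕ → ℕ}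

lemma bop_ext {S T : bop fun n => L2 (M (J n)) (H n)} (h : ∀ n ξ y, S.1 n ξ y = T.1 n ξ y) : S = T :=
  Subtype.ext (funext fun n => ContinuousLinearMap.ext fun ξ => PiLp.ext (h n ξ))

lemma exists_sc {Z : Type} [Fintype Z] [Nonempty Z] (f : ∀ n, M (J n) → M (J n))
    (c : ∀ n, M (J n) → ℂ) (h : ∀ n, M (J n) → Z) (hc : ∀ n y, ‖c n y‖ ≤ 1)
    (hi : ∀ n, Set.InjOn (fun y => (f n y, h n y)) {y | c n y ≠ 0}) :
    ∃ T : bop fun n => L2 (M (J n)) (H n), (∀ n, ‖T.1 n‖ ≤ Fintype.card Z) ∧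
      ∀ n ξ y, T.1 n ξ y = c n y • ξ (f n y) := by
  have : ∀ n, ‖op (H := H n) (f n) fun y => c n y • 1‖ ≤ Fintype.card Z := fun n => by
    simpa using op_norm (h n) zero_le_one (fun y => norm_smul_one_le (hc n y))
      ((hi n).mono fun y hy (h0 : c n y = 0) => hy (by rw [h0, zero_smul]))
  exact ⟨⟨_, _, this⟩, this, fun _ _ _ => rfl⟩

open Classical in
lemma exists_ind (p : ∀ n, M (J n) → Prop) : ∃ T : bop fun n => L2 (M (J n)) (H n),
    (∀ n, ‖T.1 n‖ ≤ 1) ∧ ∀ n ξ y, T.1 n ξ y = if p n y then ξ y else 0 := by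
  simpa using exists_sc (H := H) (fun _ => id) (fun n y => if p n y then 1 else 0) (fun _ _ => ())
    (fun n y => by split_ifs <;> simp) fun n a _ b _ e => congrArg Prod.fst e

lemma exists_amp {Λ : Type} [Ring Λ] [Algebra ℂ Λ] (ρ : ∀ n, Λ →ₐ[ℂ] H n →L[ℂ] H n)
    (hρ : ∀ x, ∃ C, ∀ n, ‖ρ n x‖ ≤ C) : ∃ ι : Λ →ₐ[ℂ] bop fun n => L2 (M (J n)) (H n),
      (∀ x n ξ y, (ι x).1 n ξ y = ρ n x (ξ y)) ∧ ∀ x n, ‖(ι x).1 n‖ ≤ ‖ρ n x‖ := by
  have e : ∀ n (a : H n →L[ℂ] H n) (ξ : L2 (M (J n)) (H n)) y, tw 1 a ξ y = a (ξ y) :=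
    fun n a ξ y => by simp [tw_apply]; rfl
  obtain ⟨ι, h1, h2⟩ : ∃ ι : Λ → bop fun n => L2 (M (J n)) (H n),
      (∀ x n ξ y, (ι x).1 n ξ y = ρ n x (ξ y)) ∧ ∀ x n, ‖(ι x).1 n‖ ≤ ‖ρ n x‖ :=
    ⟨fun x => ⟨fun n => tw 1 (ρ n x), (hρ x).imp fun C hC n => (tw_norm _ _).trans (hC n)⟩,
      fun x n => e n _, fun x n => tw_norm _ _⟩
  exact ⟨AlgHom.ofLinearMap
    { toFun := ι
      map_add' := fun x y => bop_ext fun n ξ z => by simp [h1]
      map_smul' := fun c x => bop_ext fun n ξ z => by simp [h1] }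
    (bop_ext fun n ξ z => by simp [h1]) fun x y => bop_ext fun n ξ z => by
      simp [h1], h1, h2⟩

lemma exists_d : ∃ d : Aff →* bop fun n => L2 (M (J n)) (H n), (∀ g n, ‖(d g).1 n‖ ≤ 1) ∧
    ∀ g n ξ y, (d g).1 n ξ y = χ (y.1 g.n) • ξ (pb g.l y) := by
  choose d d1 d2 using fun g : Aff => exists_sc (H := H) (J := J)
    (fun _ => pb g.l) (fun _ y => χ (y.1 g.n)) (fun _ _ => ()) (fun _ _ => (norm_chi _).le)
    fun n a _ b _ e => pb_inj _ (congrArg Prod.fst e)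
  refine ⟨⟨⟨d, bop_ext fun n ξ y => ?_⟩, fun g g' => bop_ext fun n ξ y => ?_⟩,
    fun g n => by simpa using d1 g n, d2⟩
  · rw [d2, bop_one, one_n, map_zero, AddChar.map_zero_eq_one, one_smul]; rfl
  · simp only [d2, bop_mul, smul_smul, mul_n, map_add, AddChar.map_add_eq_mul]; rfl

lemma exists_start (ω : Ultrafilter ℕ) (u : ∀ n, Fin 5 → H n →L[ℂ] H n) (j : ℕ → ℕ)
    (h : ∀ᶠ n in ω, j n < J n ∧ Q (J n) (u n) (j n)) :
    ∃ x : bdd fun n => L2 (M (J n + 1)) (H n),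
      (∀ n y, ¬ (Lev (j n) y.1 ∧ j n < J n) → x.1 n y = 0) ∧ ∀ᶠ n in ω,
        ‖x.1 n‖ = 1 ∧ ∀ s, ‖tw (gen s) (u n s) (x.1 n) - x.1 n‖ ≤ 1 / 10 ^ 10 := by
  have : ∀ n, ∃ ξ : L2 (M (J n + 1)) (H n), ‖ξ‖ ≤ 1 ∧
      (∀ y, ¬ (Lev (j n) y.1 ∧ j n < J n) → ξ y = 0) ∧ (j n < J n ∧ Q (J n) (u n) (j n) →
        ‖ξ‖ = 1 ∧ ∀ s, ‖tw (gen s) (u n s) ξ - ξ‖ ≤ 1 / 10 ^ 10) := by
    intro n
    by_cases hn : j n < J n ∧ Q (J n) (u n) (j n)
    swap
    · exact ⟨0, by simp, fun _ _ => rfl, fun a => absurd a hn⟩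
    obtain ⟨h1, ξ, h2, h3⟩ := hn
    have h4 : 0 < ‖ξ‖ := by linarith [h3 0, norm_nonneg (tw (gen 0) (u n 0) ξ - ξ)]
    have h5 : ‖((‖ξ‖⁻¹ : ℝ) : ℂ) • ξ‖ = 1 := by simp [norm_smul, h4.ne']
    refine ⟨((‖ξ‖⁻¹ : ℝ) : ℂ) • ξ, h5.le, fun y a => ?_, fun _ => ⟨h5, fun s => ?_⟩⟩
    · simp [h2 y fun b => a ⟨b, h1⟩]
    · rw [map_smul, ← smul_sub, norm_smul, Complex.norm_real, norm_inv, norm_norm,
        inv_mul_le_iff₀ h4]
      linarith [h3 s]
  choose ξ a b c using this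
  exact ⟨⟨ξ, 1, a⟩, b, h.mono c⟩

open Classical in
lemma exists_gather {d : Aff → bop fun n => L2 (M (J n + 1)) (H n)}
    (d2 : ∀ g n ξ y, (d g).1 n ξ y = χ (y.1 g.n) • ξ (pb g.l y))
    {τ p : bop fun n => L2 (M (J n + 1)) (H n)} (τ2 : ∀ n ξ y, τ.1 n ξ y = (1 : ℂ) • ξ (pb mX y))
    (p2 : ∀ n ξ y, ¬ Van (J n) y.1 → p.1 n ξ y = 0) :
    ∃ γ : (Fin 3 → F) → bop fun n => L2 (M (J n + 1)) (H n),
      (∀ a n ξ y, (γ a).1 n ξ y = (if Van (J n) y.1 then (1 : ℂ) else 0) • ξ (sec a y)) ∧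
      ∀ c, ∑ a, γ a * (d (tr (cst c)) * (τ * p)) = if c = 0 then (101 ^ 3 : ℂ) • p else 0 := by
  choose γ γ1 γ2 using fun a : Fin 3 → F => exists_sc (H := H) (J := fun n => J n + 1)
    (fun _ => sec a) (fun n y => if Van (J n) y.1 then 1 else 0) (fun _ _ => ())
    (fun n y => by split_ifs <;> simp) fun n y hy y' hy' e => by
      rw [← sec_mX a (y := y) (by simpa using hy), ← sec_mX a (y := y') (by simpa using hy')]
      exact congrArg (fun q => pb mX q.1) e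
  refine ⟨γ, γ2, fun c => bop_ext fun n ξ y => ?_⟩
  have e1 : ∀ y : M (J n + 1), pb (tr (cst c)).l y = y := fun _ => rfl
  simp only [bop_sum, bop_mul, WithLp.ofLp_sum, Finset.sum_apply, γ2, d2, τ2, one_smul, e1]
  by_cases hy : Van (J n) y.1
  · simp only [hy, if_true, one_smul, sec_mX _ hy, tr_n, sec_cst _ _ hy, ← sum_smul, sum_chi]
    split_ifs
    · rw [bop_smul, PiLp.smul_apply]
    · rw [bop_zero, zero_smul, PiLp.zero_apply]
  · simp only [hy, if_false, zero_smul, sum_const_zero]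
    split_ifs
    · rw [bop_smul, PiLp.smul_apply, p2 n ξ y hy, smul_zero]
    · rw [bop_zero, PiLp.zero_apply]

set_option maxHeartbeats 1000000 in
theorem step (ω : Ultrafilter ℕ) {A Λ : Type} [Ring A] [Algebra ℂ A] [Ring Λ] [Algebra ℂ Λ]
    (ρ : ∀ n, Λ →ₐ[ℂ] H n →L[ℂ] H n) (hρ : ∀ x, ∃ C, ∀ n, ‖ρ n x‖ ≤ C) (I : Ideal Λ) [I.IsTwoSided]
    (hI : ∀ x ∈ I, Tendsto (fun n => ‖ρ n x‖) ω (𝓝 0)) (θ : A →ₐ[ℂ] Λ ⧸ I) (L : A → Λ)
    (hL : ∀ a, Ideal.Quotient.mk I (L a) = θ a) (σ : Aff →* A) {v v' : A} (hv : v' * v = 1)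
    (hσ : ∀ g, ∀ ε > 0, ∀ᶠ n in ω, ‖ρ n (L (σ g))‖ ≤ 1 + ε) (hal : ∀ g, σ (al g) * v = v * σ g)
    (j : ℕ → ℕ) (h : ∀ᶠ n in ω, j n < J n ∧ Q (J n) (fun s => ρ n (L (σ (gen s)))) (j n)) :
    ∀ᶠ n in ω, Q (J n) (fun s => ρ n (L (σ (gen s)))) (j n + 1) := by
  classical
  obtain ⟨E, _, _, _, i, P, i1, i2, i3, i4⟩ := exists_ultra (fun n => L2 (M (J n + 1)) (H n)) ω
  obtain ⟨ι, hι, hι'⟩ := exists_amp (J := fun n => J n + 1) ρ hρ
  obtain ⟨Θ, hΘ⟩ : ∃ Θ : A →ₐ[ℂ] E →L[ℂ] E, ∀ a, Θ a = P (ι (L a)) :=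
    ⟨(Ideal.Quotient.liftₐ I (P.comp ι) fun x hx => ContinuousLinearMap.ext fun η => by
      simpa using i4 (ι x) 0 (fun ε hε => ((hI x hx).eventually_le_const hε).mono
        fun n hn => by linarith [hι' x n]) η).comp θ, fun a => by
      rw [AlgHom.comp_apply, ← hL]; rfl⟩
  have com : ∀ {T : bop fun n => L2 (M (J n + 1)) (H n)} {f : ∀ n, M (J n + 1) → M (J n + 1)}
      {c : ∀ n, M (J n + 1) → ℂ}, (∀ n ξ y, T.1 n ξ y = c n y • ξ (f n y)) →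
      ∀ a, P T * Θ a = Θ a * P T := fun {T f c} hT a => by
    rw [hΘ, ← map_mul, ← map_mul]
    exact congrArg P (bop_ext fun n ξ y => by simp only [bop_mul, hT, hι, map_smul])
  obtain ⟨d, d1, d2⟩ := exists_d (H := H) (J := fun n => J n + 1)
  obtain ⟨τ, -, τ2⟩ := exists_sc (H := H) (J := fun n => J n + 1) (fun _ => pb mX) (fun _ _ => 1)
    (fun _ y c => y.1 (cst c)) (fun _ _ => by simp) fun n => mX_inj.injOn
  obtain ⟨p, p1, p2⟩ := exists_ind (H := H) (J := fun n => J n + 1)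
    fun n y => Lev (j n) y.1 ∧ j n < J n
  obtain ⟨q, -, q2⟩ := exists_ind (H := H) (J := fun n => J n + 1) fun n y => Lev (j n + 1) y.1
  obtain ⟨γ, γ2, γ3⟩ := exists_gather d2 τ2 (p := p) fun n ξ y hy => by
    rw [p2, if_neg fun a => hy (a.1.1.mono a.2)]
  have cp : ∀ a, P p * Θ a = Θ a * P p :=
    com (f := fun _ => id) (c := fun n y => if Lev (j n) y.1 ∧ j n < J n then 1 else 0)
      fun n ξ y => by rw [p2]; split_ifs <;> simp
  have cq : ∀ a, P q * Θ a = Θ a * P q :=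
    com (f := fun _ => id) (c := fun n y => if Lev (j n + 1) y.1 then 1 else 0)
      fun n ξ y => by rw [q2]; split_ifs <;> simp
  obtain ⟨π, hπ⟩ : ∃ π : Aff →* E →L[ℂ] E, ∀ g, π g = Θ (σ g) * P (d g) := by
    refine ⟨⟨⟨fun g => Θ (σ g) * P (d g), by simp only [map_one, mul_one]⟩, fun g g' => ?_⟩,
      fun _ => rfl⟩
    simp only [map_mul, mul_assoc]
    rw [← mul_assoc (P (d g)) (Θ _), com (d2 g), mul_assoc]
  have hπ' : ∀ g x n, (app (ι (L (σ g)) * d g) x - x).1 n =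
      tw g (ρ n (L (σ g))) (x.1 n) - x.1 n := fun g x n => PiLp.ext fun y => by
    simp only [bdd_sub, app_apply, bop_mul, PiLp.sub_apply, hι, d2, tw_apply, map_smul]
  have hπ2 : ∀ g x, π g (i x) - i x = i (app (ι (L (σ g)) * d g) x - x) := fun g x => by
    rw [hπ, hΘ, ← map_mul, i3, map_sub]
  have hn : ∀ T : bop fun n => L2 (M (J n + 1)) (H n), (∀ n, ‖T.1 n‖ ≤ 1) → ∀ η, ‖P T η‖ ≤ ‖η‖ :=
    fun T hT η => by simpa using i4 T 1 (fun ε hε => .of_forall fun n => by linarith [hT n]) η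
  obtain ⟨x, x1, x2⟩ := exists_start ω _ j h
  obtain ⟨η, η1, η2⟩ := abstract_step π (fun g ξ => by
      rw [hπ, mul_apply_eq_comp, hΘ]
      refine le_trans ?_ (hn (d g) (d1 g) ξ)
      simpa using i4 _ 1 (fun ε hε => (hσ g ε hε).mono fun n => (hι' _ n).trans) _)
    (Θ v * P τ) (P p) (fun g => by
      have e : d (al g) * τ = τ * d g := bop_ext fun n ξ y => by
        simp only [bop_mul, d2, τ2, one_smul]
        rw [show pb mX (pb (al g).l y) = pb g.l (pb mX y) from M.ext fun m => by simp [al]]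
        rfl
      simp only [hπ, mul_assoc]
      rw [← mul_assoc (P (d _)), com (d2 _), ← mul_assoc (P τ), com τ2, mul_assoc,
        mul_assoc, ← map_mul P, ← map_mul P, e, ← mul_assoc, ← mul_assoc, ← map_mul, ← map_mul, hal])
    (fun g => by
      have e : d g * p = p * d g := bop_ext fun n ξ y => by
        simp only [bop_mul, d2, p2, lev_pb, smul_ite, smul_zero]
      rw [hπ, ← mul_assoc, cp, mul_assoc, mul_assoc, ← map_mul P, ← map_mul P, e])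
    (hn p p1) (Ω := i x) (tendsto_nhds_unique (i2 x)
      (tendsto_const_nhds.congr' (x2.mono fun n a => a.1.symm))) (by
      rw [i3]
      refine congrArg i (Subtype.ext (funext fun n => PiLp.ext fun y => ?_))
      rw [app_apply, p2]
      split_ifs with a
      exacts [rfl, (x1 n y a).symm])
    fun s => by
      rw [hπ2]
      exact le_of_tendsto (i2 _) (x2.mono fun n a => by rw [hπ']; exact a.2 s)
  obtain ⟨W, hW⟩ : ∃ W, W = (∑ c, π (tr (cst c)) * (Θ v * P τ)) * P p := ⟨_, rfl⟩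
  rw [← hW] at η2
  replace hW : W = ∑ c, Θ (σ (tr (cst c)) * v) * P (d (tr (cst c)) * (τ * p)) := by
    rw [hW, sum_mul]
    refine sum_congr rfl fun c _ => ?_
    simp only [hπ, map_mul, mul_assoc]
    rw [← mul_assoc (P (d _)), com (d2 _), mul_assoc]
  have W1 : W η ≠ 0 := by
    have e2 : Θ v' * ∑ a, P (γ a) * W = (101 ^ 3 : ℂ) • P p := by
      simp only [hW, mul_sum, ← mul_assoc (P (γ _)), com (γ2 _), mul_assoc, ← map_mul P]
      rw [sum_comm]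
      simp only [← mul_sum, ← map_sum, γ3]
      rw [sum_eq_single 0 (fun c _ hc => by rw [if_neg hc, map_zero, mul_zero]) (by simp),
        show tr (cst 0) = 1 from Aff.ext (funext fun k => by simp [tr, cst]) rfl, if_pos rfl,
        map_one, one_mul, ← mul_assoc, ← map_mul, hv, map_one, one_mul, map_smul]
    intro h0
    have := congrArg (fun T : E →L[ℂ] E => T η) e2
    simp only [_root_.sum_apply, h0, mul_apply_eq_comp, map_zero, sum_const_zero, smul_apply] at this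
    exact η1 ((smul_eq_zero.mp this.symm).resolve_left (by norm_num))
  obtain ⟨w, hw⟩ : ∃ w, W = P (q * w) := by
    refine ⟨∑ c, ι (L (σ (tr (cst c)) * v)) * (d (tr (cst c)) * (τ * p)), ?_⟩
    simp only [hW, map_mul P q, map_sum, mul_sum, map_mul P (ι _), ← hΘ]
    refine sum_congr rfl fun c _ => ?_
    rw [← mul_assoc (P q), cq, mul_assoc, ← map_mul P q]
    refine congrArg (fun T => _ * P T) (bop_ext fun n ξ y => ?_)
    have e1 : pb (tr (cst c)).l y = y := rfl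
    simp only [bop_mul, q2, d2, τ2, p2, e1, lev_mX]
    by_cases a : Lev (j n + 1) y.1 <;> simp [a]
  obtain ⟨x', hx'⟩ := i1.exists_mem_open (s := ⋂ s, {η | ‖π (gen s) (W η) - W η‖ < ‖W η‖ / 10 ^ 10})
    (isOpen_iInter_of_finite fun s => isOpen_lt (by fun_prop) (by fun_prop))
    ⟨η, Set.mem_iInter.mpr fun s => by simpa [η2] using W1⟩
  simp only [Set.mem_iInter, Set.mem_ofPred_eq, hw, i3, hπ2] at hx'
  refine (eventually_all.mpr fun s =>
    (i2 _).eventually_lt ((i2 _).div_const (10 ^ 10)) (hx' s)).mono fun n hn =>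
      ⟨(app (q * w) x').1 n, fun y hy => ?_, fun s => by rw [← hπ']; exact hn s⟩
  rw [app_apply, bop_mul, q2, if_neg hy]

end Vale.Agent.P083
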