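import Vale.Agent.P083.Defs
import Vale.Agent.P083.Alg
import Vale.Agent.P083.Step

/-! The non-embedding theorem. -/

namespace Vale.Agent.P083

open Filter Topology

lemma gap {B : Type} [CStarAlgebra B] {s₁ s₂ : B} (b1 : star s₁ * s₁ = 1) (b2 : star s₂ * s₂ = 1)
    (b3 : s₁ * star s₁ + s₂ * star s₂ = 1)
    (b4 : (StarAlgebra.adjoin ℂ {s₁, s₂}).topologicalClosure = ⊤) {H : Type} [NormedAddCommGroup H]
    [InnerProductSpace ℂ H] [CompleteSpace H] (r : B →⋆ₐ[ℂ] H →L[ℂ] H) (u : Fin 5 → B) :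
    ∃ J, (∀ s, ‖r (u s)‖ ≤ 1 + 1 / 10 ^ 11) → ¬ Q J (fun s => r (u s)) J := by
  have c1 : star s₂ * s₁ = 0 := by
    have : star s₁ * (s₁ * star s₁ + s₂ * star s₂) * s₁ = 1 := by rw [b3, mul_one, b1]
    rw [mul_add, add_mul, ← mul_assoc, b1, one_mul, b1, add_eq_left] at this
    rw [← CStarRing.star_mul_self_eq_zero_iff, ← this]
    simp [mul_assoc]
  have c2 : star s₁ * s₂ = 0 := by simpa using congrArg star c1
  by_cases hn : ∀ s, ‖r (u s)‖ ≤ 1 + 1 / 10 ^ 11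
  swap
  · exact ⟨0, fun a => absurd a hn⟩
  obtain ⟨J, hJ⟩ := cuntz_gap (S := fun c => r (cond c s₂ s₁)) (fun c d => by
    cases c <;> cases d <;> simp [← map_star, ← map_mul, b1, b2, c1, c2]) (by
    simp only [Fintype.sum_bool, cond, ← map_star, ← map_mul, ← map_add, add_comm (s₂ * _), b3,
      map_one]) _ (fun s => by
    refine map_mem_closure (AddMonoidHomClass.continuous_of_bound r 1 fun x => by
      simpa using NonUnitalStarAlgHom.norm_apply_le r x) (s := StarAlgebra.adjoin ℂ {s₁, s₂})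
      (b4.ge StarSubalgebra.mem_top) fun x hx => ?_
    refine StarAlgebra.adjoin_le (S := (StarAlgebra.adjoin ℂ _).comap r) ?_ hx
    rintro _ (rfl | rfl)
    exacts [StarAlgebra.subset_adjoin ℂ _ ⟨false, rfl⟩,
      StarAlgebra.subset_adjoin ℂ _ ⟨true, rfl⟩]) hn
  refine ⟨J, fun _ ⟨ξ, h1, h2⟩ => ?_⟩
  simpa [hJ ξ (fun y hy => h1 y fun a => a.2 hy) fun s => (h2 s).le] using h2 0

lemma first_fail {P : ℕ → Prop} (J : ℕ) : ∃ j, P 0 → ¬ P J → (j < J ∧ P j) ∧ ¬ P (j + 1) := by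
  by_contra hc
  push Not at hc
  have : ∀ j ≤ J, P j := fun j hj => by
    induction j with
    | zero => exact (hc 0).1
    | succ j ih => exact (hc j).2.2 ⟨hj, ih (by omega)⟩
  exact (hc 0).2.1 (this _ le_rfl)

variable {A B : Type} [CStarAlgebra A] [CStarAlgebra B] [Nontrivial B] {ω : Ultrafilter ℕ}
  {φ : A →⋆ₐ[ℂ] Ultrapower ω B} {L : A → Linf B}
  (hL : ∀ a, Ideal.Quotient.mk (nullIdeal ω B) (L a) = φ a)
include hL

lemma lift_iso {a : A} (ha : star a * a = 1) {ε : ℝ} (hε : 0 < ε) : ∀ᶠ n in ω, ‖L a n‖ ≤ 1 + ε := by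
  have h1 : star (L a) * L a - 1 ∈ nullIdeal ω B := Ideal.Quotient.eq.mp (by
    rw [map_mul, show Ideal.Quotient.mk _ (star (L a)) =
      star (Ideal.Quotient.mk (nullIdeal ω B) (L a)) from rfl, hL, ← map_star, ← map_mul, ha,
      map_one, map_one])
  refine (Tendsto.eventually_le_const hε h1).mono fun n hn => ?_
  have h2 := norm_sub_norm_le (star (L a n) * L a n) 1
  rw [CStarRing.norm_star_mul_self, norm_one] at h2
  have h3 : ‖star (L a n) * L a n - 1‖ ≤ ε := hn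
  nlinarith [norm_nonneg (L a n)]

lemma lift_pos (hφ : Function.Injective φ) {a : A} (ha : a ≠ 0) :
    ∃ δ > 0, ∀ᶠ n in ω, δ ≤ ‖L a n‖ := by
  by_contra hc
  push Not at hc
  refine ha (hφ ?_)
  rw [← hL, map_zero, Ideal.Quotient.eq_zero_iff_mem]
  exact tendsto_order.mpr ⟨fun a ha => .of_forall fun n => ha.trans_le (norm_nonneg _), hc⟩

lemma lift_rel {a b c : A} {z : ℂ} (h : z • (a * b) = c) :
    z • (L a * L b) - L c ∈ nullIdeal ω B := Ideal.Quotient.eq.mp (by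
  rw [← Ideal.Quotient.mkₐ_eq_mk ℂ, map_smul, map_mul, Ideal.Quotient.mkₐ_eq_mk, hL, hL, hL,
    ← map_mul, ← map_smul, h])

omit hL in
theorem not_injective {s₁ s₂ : B} (b1 : star s₁ * s₁ = 1) (b2 : star s₂ * s₂ = 1)
    (b3 : s₁ * star s₁ + s₂ * star s₂ = 1)
    (b4 : (StarAlgebra.adjoin ℂ {s₁, s₂}).topologicalClosure = ⊤) {σ : Aff →* A} {v : A}
    {b : M 1 → A} {y₀ : M 1} (a1 : ∀ g, star (σ g) * σ g = 1) (a2 : star v * v = 1)
    (a3 : ∀ g, σ (al g) * v = v * σ g) (a4 : ∀ g y, χ (y.1 g.n) • (σ g * b (pb g.l y)) = b y)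
    (a5 : b y₀ ≠ 0) (a6 : ¬ Van 0 y₀.1) : ¬ Function.Injective φ := by
  intro hφ
  choose L hL using fun a => Ideal.Quotient.mk_surjective (φ a)
  choose H _ _ _ r Ω r1 r2 using fun n => exists_rep (B := B) (L (b y₀) n)
  obtain ⟨ρ, hρ⟩ : ∃ ρ : ∀ n, Linf B →ₐ[ℂ] H n →L[ℂ] H n, ∀ n x, ρ n x = r n (x n) :=
    ⟨fun n => (r n).toAlgHom.comp (AlgHom.ofLinearMap ⟨⟨fun x => x n, fun _ _ => rfl⟩,
      fun _ _ => rfl⟩ rfl fun _ _ => rfl), fun _ _ => rfl⟩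
  have ρ1 : ∀ n x, ‖ρ n x‖ ≤ ‖x n‖ := fun n x => hρ n x ▸ NonUnitalStarAlgHom.norm_apply_le (r n) _
  have ρ2 : ∀ x ∈ nullIdeal ω B, Tendsto (fun n => ‖ρ n x‖) ω (𝓝 0) := fun x hx =>
    squeeze_zero (fun _ => norm_nonneg _) (ρ1 · x) hx
  have ρ3 : ∀ g, ∀ ε > 0, ∀ᶠ n in ω, ‖ρ n (L (σ g))‖ ≤ 1 + ε := fun g ε hε =>
    (lift_iso hL (a1 g) hε).mono fun n hn => (ρ1 n _).trans hn
  choose J hJ using fun n => gap b1 b2 b3 b4 (r n) fun s => L (σ (gen s)) n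
  simp only [← hρ] at hJ
  have st : ∀ᶠ n in ω, Q (J n) (fun s => ρ n (L (σ (gen s)))) 0 := by
    obtain ⟨δ, δ0, hδ⟩ := lift_pos hL hφ a5
    obtain ⟨e, he⟩ : ∃ e : Fin 5 → M 1 → Linf B, ∀ s y, e s y = χ (y.1 (gen s).n) •
      (L (σ (gen s)) * L (b (pb (gen s).l y))) - L (b y) := ⟨_, fun _ _ => rfl⟩
    have h1 : ∀ s, Tendsto (fun n => ∑ y, ‖ρ n (e s y)‖ ^ 2) ω (𝓝 0) := fun s => by
      simpa using tendsto_finsetSum Finset.univ fun (y : M 1) _ =>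
        (ρ2 (e s y) (he s y ▸ lift_rel hL (a4 (gen s) y))).pow 2
    filter_upwards [hδ, eventually_all.mpr fun s => (h1 s).eventually_lt_const
      (show 0 < (δ / 10 ^ 10) ^ 2 by positivity)] with n h2 h3
    refine start _ _ (fun y => ρ n (L (b y)) (Ω n)) a6 fun s =>
      lt_of_le_of_lt (Finset.sum_le_sum fun y _ => ?_) ((h3 s).trans_le ?_)
    · gcongr
      have := (ρ n (e s y)).le_opNorm (Ω n)
      rw [r1, mul_one] at this
      refine le_trans (le_of_eq ?_) this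
      rw [he, map_sub, map_smul, map_mul]
      rfl
    · rw [hρ, r2]; gcongr
  choose j hj using fun n => first_fail (P := Q (J n) fun s => ρ n (L (σ (gen s)))) (J n)
  have h1 := (st.and (eventually_all.mpr fun s => ρ3 (gen s) (1 / 10 ^ 11) (by norm_num))).mono
    fun n h => hj n h.1 (hJ n h.2)
  obtain ⟨n, h2, h3⟩ := (h1.and (step ω ρ (fun x => ⟨‖x‖, fun n => (ρ1 n x).trans
    (lp.norm_apply_le_norm ENNReal.top_ne_zero x n)⟩) _ ρ2 φ.toAlgHom L hL σ a2 ρ3 a3 j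
    (h1.mono fun n h => h.1))).exists
  exact h2.2 h3

end Vale.Agent.P083
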