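import Vale.Agent.P083.Kazhdan

/-! The affine group of rank three over a polynomial ring in characteristic 101. -/

namespace Vale.Agent.P083

open Finset Polynomial

instance fact101 : Fact (Nat.Prime 101) := ⟨by norm_num⟩

abbrev F : Type := ZMod 101
abbrev R : Type := F[X]
abbrev N : Type := Fin 3 → R

noncomputable instance finC : Fintype (Fin 3 → F) := Fintype.ofFinite _

@[ext] structure Aff where
  n : N
  l : N ≃ₗ[R] N

noncomputable instance : Mul Aff := ⟨fun g h => ⟨g.n + g.l h.n, g.l * h.l⟩⟩
noncomputable instance : One Aff := ⟨⟨0, 1⟩⟩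
noncomputable instance : Inv Aff := ⟨fun g => ⟨-g.l⁻¹ g.n, g.l⁻¹⟩⟩

@[simp] lemma mul_n (g h : Aff) : (g * h).n = g.n + g.l h.n := rfl
@[simp] lemma mul_l (g h : Aff) : (g * h).l = g.l * h.l := rfl
@[simp] lemma one_n : (1 : Aff).n = 0 := rfl
@[simp] lemma one_l : (1 : Aff).l = 1 := rfl

noncomputable instance : Group Aff :=
  Group.ofLeftAxioms (fun a b c => Aff.ext (by simp [add_assoc]) (by simp [mul_assoc]))
    (fun a => Aff.ext (by simp) (by simp))
    fun a => Aff.ext (neg_add_cancel (a.l⁻¹ a.n)) (inv_mul_cancel a.l)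

noncomputable instance : MulAction Aff N where
  smul g x := g.n + g.l x
  one_smul x := zero_add x
  mul_smul g h x := by
    change g.n + g.l h.n + g.l (h.l x) = g.n + g.l (h.n + h.l x)
    rw [map_add, add_assoc]

lemma smul_def (g : Aff) (x : N) : g • x = g.n + g.l x := rfl

lemma Aff.ext_smul {g h : Aff} (e : ∀ x : N, g • x = h • x) : g = h := by
  have h1 : g.n = h.n := by simpa [smul_def] using e 0
  exact Aff.ext h1 (LinearEquiv.ext fun x => by simpa [smul_def, h1] using e x)

instance : Countable R :=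
  (AddMonoidAlgebra.coeff_injective.comp (Polynomial.toFinsuppIso F).injective).countable

instance : Countable Aff := by
  refine Function.Injective.countable (f := fun g : Aff => (g.n, fun k => g.l (Pi.single k 1)))
    fun g h e => Aff.ext (congrArg Prod.fst e) ?_
  exact LinearEquiv.toLinearMap_injective ((Pi.basisFun R (Fin 3)).ext fun k => by
    simpa using congrFun (congrArg Prod.snd e) k)

noncomputable def tr (n : N) : Aff := ⟨n, 1⟩
noncomputable def lin (l : N ≃ₗ[R] N) : Aff := ⟨0, l⟩
noncomputable def al (g : Aff) : Aff := ⟨(X : R) • g.n, g.l⟩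

lemma tr_n (n : N) : (tr n).n = n := (rfl)

lemma tr_add (m n : N) : tr (m + n) = tr m * tr n := Aff.ext rfl (mul_one _).symm

noncomputable def nil (i k : Fin 3) (f : R) : N →ₗ[R] N :=
  LinearMap.single R (fun _ => R) i ∘ₗ (f • LinearMap.proj k)

lemma nil_apply (i k : Fin 3) (f : R) (x : N) : nil i k f x = Pi.single i (f * x k) := rfl

noncomputable def U (i : Fin 3) : Option (Fin 3) → R → Aff
  | none, f => tr (Pi.single i f)
  | some k, f => if h : k = i then 1 else lin (LinearEquiv.ofLinearMap (LinearMap.id + nil i k f)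
      (LinearMap.id - nil i k f) (LinearMap.ext fun x => by simp [nil_apply, h])
      (LinearMap.ext fun x => by simp [nil_apply, h]))

noncomputable def ev : Option (Fin 3) → N → R
  | none, _ => 1
  | some k, x => x k

lemma ev_add (k : Option (Fin 3)) (x : N) (i : Fin 3) (a : R) :
    ev k (x + Pi.single i a) = ev k x + if k = some i then a else 0 := by
  cases k <;> simp [ev, Pi.single_apply]

lemma U_smul {i : Fin 3} {k : Option (Fin 3)} (h : k ≠ some i) (f : R) (x : N) :
    U i k f • x = x + Pi.single i (f * ev k x) := by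
  cases k with
  | none => simp [U, ev, smul_def, tr, add_comm]
  | some k =>
    have : k ≠ i := by simpa using h
    simp [U, ev, smul_def, lin, this, nil_apply]

lemma U_add {i : Fin 3} {k : Option (Fin 3)} (h : k ≠ some i) (f g : R) :
    U i k (f + g) = U i k f * U i k g :=
  Aff.ext_smul fun x => by
    simp only [mul_smul, U_smul h, ev_add, h, if_false, add_zero, add_mul, Pi.single_add]
    abel

lemma U_zero {i : Fin 3} {k : Option (Fin 3)} (h : k ≠ some i) : U i k 0 = 1 :=
  Aff.ext_smul fun x => by simp [U_smul h]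

lemma U_pow {i : Fin 3} {k : Option (Fin 3)} (h : k ≠ some i) (f : R) (m : ℕ) :
    U i k f ^ m = U i k (m * f) := by
  induction m with
  | zero => simp [U_zero h]
  | succ m ih => rw [pow_succ, ih, ← U_add h]; congr 1; push_cast; ring

lemma U_101 {i : Fin 3} {k : Option (Fin 3)} (h : k ≠ some i) (f : R) : U i k f ^ 101 = 1 := by
  rw [U_pow h, CharP.cast_eq_zero R 101, zero_mul, U_zero h]

lemma U_comm {i j : Fin 3} {k l : Option (Fin 3)} (h : k ≠ some i) (h' : l ≠ some j)
    (h1 : k ≠ some j) (h2 : l ≠ some i) (f g : R) : Commute (U i k f) (U j l g) :=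
  Aff.ext_smul fun x => by
    simp only [mul_smul, U_smul h, U_smul h', ev_add, h1, h2, if_false, add_zero]
    abel

lemma U_rel {i j : Fin 3} {l : Option (Fin 3)} (h : some j ≠ some i) (h' : l ≠ some j)
    (h2 : l ≠ some i) (f g : R) :
    U i (some j) f * U j l g = U i l (f * g) * (U j l g * U i (some j) f) :=
  Aff.ext_smul fun x => by
    simp only [mul_smul, U_smul h, U_smul h', U_smul h2, ev_add, h', h2, if_false, if_true,
      add_zero, mul_add, Pi.single_add, mul_assoc]
    abel

lemma U_heis {i j : Fin 3} {k l : Option (Fin 3)} (h : k ≠ some i) (h' : l ≠ some j)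
    (h1 : k ≠ some j ∨ l ≠ some i) (f g : R) : Heis (U i k f) (U j l g) := by
  have key : ∀ {i j : Fin 3} {l : Option (Fin 3)}, some j ≠ some i → l ≠ some j → l ≠ some i →
      ∀ f g : R, Heis (U i (some j) f) (U j l g) := fun h h' h2 f g =>
    ⟨_, U_rel h h' h2 f g, U_comm h2 h h2 h _ _, U_comm h2 h' h' h2 _ _, U_101 h2 _⟩
  by_cases a : k = some j
  · subst a
    exact key h h' (h1.resolve_left (by simp)) f g
  by_cases b : l = some i
  · subst b
    exact (key h' h a g f).symm
  exact ⟨1, by rw [one_mul, (U_comm h h' a b f g).eq], Commute.one_left _, Commute.one_left _,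
    one_pow _⟩

def gi : Fin 5 → Fin 3 := ![0, 1, 2, 0, 0]
def gk : Fin 5 → Option (Fin 3) := ![some 1, some 2, some 0, some 1, none]
noncomputable def gen (s : Fin 5) : Aff := U (gi s) (gk s) (![1, 1, 1, X, 1] s)

lemma gen_101 (s : Fin 5) : gen s ^ 101 = 1 := U_101 (by revert s; decide) _

lemma gen_heis (s t : Fin 5) : Heis (gen s) (gen t) :=
  U_heis (by revert s; decide) (by revert t; decide) (by revert s t; decide) _ _

lemma U_mem {K : Subgroup Aff} (hK : ∀ s, gen s ∈ K) {i : Fin 3} {k : Option (Fin 3)}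
    (h : k ≠ some i) (f : R) : U i k f ∈ K := by
  have c : ∀ (i j : Fin 3) (l : Option (Fin 3)) {f g : R}, some j ≠ some i → l ≠ some j →
      l ≠ some i → U i (some j) f ∈ K → U j l g ∈ K → U i l (f * g) ∈ K := by
    intro i j l f g h h' h2 a b
    have := K.mul_mem a b
    rwa [U_rel h h' h2, K.mul_mem_cancel_right (K.mul_mem b a)] at this
  have a01 : U 0 (some 1) 1 ∈ K := hK 0
  have a12 : U 1 (some 2) 1 ∈ K := hK 1
  have a20 : U 2 (some 0) 1 ∈ K := hK 2
  have b01 : U 0 (some 1) X ∈ K := hK 3
  have a0 : U 0 none 1 ∈ K := hK 4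
  have a02 := c 0 1 _ (by decide) (by decide) (by decide) a01 a12
  have a10 := c 1 2 _ (by decide) (by decide) (by decide) a12 a20
  have a21 := c 2 0 _ (by decide) (by decide) (by decide) a20 a01
  have a1 := c 1 0 _ (by decide) (by decide) (by decide) a10 a0
  have a2 := c 2 0 _ (by decide) (by decide) (by decide) a20 a0
  have b02 := c 0 1 _ (by decide) (by decide) (by decide) b01 a12
  have b21 := c 2 0 _ (by decide) (by decide) (by decide) a20 b01
  have b12 := c 1 0 _ (by decide) (by decide) (by decide) a10 b02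
  have b20 := c 2 1 _ (by decide) (by decide) (by decide) b21 a10
  have b10 := c 1 2 _ (by decide) (by decide) (by decide) b12 a20
  simp only [mul_one, one_mul] at *
  have d1 : ∀ (i : Fin 3) (k : Option (Fin 3)), k ≠ some i → U i k 1 ∈ K := by
    intro i k h
    rcases k with _ | k
    · fin_cases i
      exacts [a0, a1, a2]
    · fin_cases i <;> fin_cases k
      exacts [absurd rfl h, a01, a02, a10, absurd rfl h, a12, a20, a21, absurd rfl h]
  have d2 : ∀ i k : Fin 3, some k ≠ some i → U i (some k) X ∈ K := by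
    intro i k h
    fin_cases i <;> fin_cases k
    exacts [absurd rfl h, b01, b02, b10, absurd rfl h, b12, b20, b21, absurd rfl h]
  have d3 : ∀ (m : ℕ) (i : Fin 3) (k : Option (Fin 3)), k ≠ some i → U i k (X ^ m) ∈ K := by
    intro m
    induction m with
    | zero => simpa using d1
    | succ m ih =>
      intro i k h
      obtain ⟨j, h1, h2⟩ : ∃ j : Fin 3, some j ≠ some i ∧ k ≠ some j := by revert i k; decide
      rw [pow_succ']
      exact c i j k h1 h2 h (d2 i j h1) (ih j k h2)
  induction f using Polynomial.induction_on' with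
  | add f g hf hg => rw [U_add h]; exact K.mul_mem hf hg
  | monomial m a =>
    have := K.pow_mem (d3 m i k h) a.val
    rwa [U_pow h, ← C_eq_natCast, ZMod.natCast_zmod_val, C_mul_X_pow_eq_monomial] at this

lemma tr_mem {K : Subgroup Aff} (hK : ∀ s, gen s ∈ K) (n : N) : tr n ∈ K := by
  rw [← univ_sum_single n, Fin.sum_univ_three, tr_add, tr_add]
  exact K.mul_mem (K.mul_mem (U_mem hK (k := none) (by simp) _) (U_mem hK (k := none) (by simp) _))
    (U_mem hK (k := none) (by simp) _)

lemma lin_mem {K : Subgroup Aff} (hK : ∀ s, gen s ∈ K) {g : Aff} (hg : g ∈ K) : lin g.l ∈ K := by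
  have : g = tr g.n * lin g.l := Aff.ext (by simp [tr, lin]) (by simp [tr, lin])
  rwa [this, K.mul_mem_cancel_left (tr_mem hK _)] at hg

noncomputable def cst (c : Fin 3 → F) : N := fun k => C (c k)
noncomputable def dv : N →+ N := AddMonoidHom.pi fun k => divX_hom.comp (Pi.evalAddMonoidHom _ k)

lemma dv_apply (n : N) (k : Fin 3) : dv n k = divX (n k) := rfl

lemma decomp (n : N) : n = cst (fun k => (n k).coeff 0) + (X : R) • dv n := by
  ext1 k
  simp [cst, dv_apply, add_comm (C _), X_mul_divX_add]

lemma dv_X (n : N) : dv ((X : R) • n) = n := by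
  ext k m
  simp [dv_apply]

lemma dv_cst (c : Fin 3 → F) : dv (cst c) = 0 := by
  ext1 k
  simp [dv_apply, cst, divX_C]

/-- averaging over the cosets of the image of `al` -/
lemma induce {E : Type} [Ring E] {V : Type} [AddCommGroup V] [Module E V] (π : Aff →* E)
    {w : V} (h1 : ∀ n, π (tr ((X : R) • n)) • w = w) {g : Aff} (h2 : π (lin g.l) • w = w) :
    π g • ∑ c, π (tr (cst c)) • w = ∑ c, π (tr (cst c)) • w := by
  have hπ : ∀ g h (w : V), π (g * h) • w = π g • π h • w := fun g h w => by rw [map_mul, mul_smul]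
  have h3 : ∀ c, π g • π (tr (cst c)) • w = π (tr (cst fun k => ((g • cst c) k).coeff 0)) • w := by
    intro c
    have : g * tr (cst c) = tr (g • cst c) * lin g.l :=
      Aff.ext (by simp [tr, lin, smul_def]) (by simp [tr, lin])
    rw [← hπ, this, hπ, h2]
    conv_lhs => rw [decomp (g • cst c), tr_add, hπ, h1]
  simp only [smul_sum, h3]
  refine Function.Bijective.sum_comp (Finite.injective_iff_bijective.mp fun c c' h => ?_)
    fun c => π (tr (cst c)) • w
  have h4 : cst c - cst c' = (X : R) • g.l.symm (dv (g • cst c) - dv (g • cst c')) := by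
    rw [← map_smul, LinearEquiv.eq_symm_apply, smul_sub, map_sub]
    have a := decomp (g • cst c)
    have b := decomp (g • cst c')
    rw [show (fun k => ((g • cst c) k).coeff 0) = _ from h] at a
    rw [smul_def] at a b ⊢
    rw [smul_def]
    linear_combination a - b
  ext k
  have := congrArg (fun n : N => (n k).coeff 0) h4
  simpa [cst, sub_eq_zero] using this

def Van (j : ℕ) (y : N →+ F) : Prop := ∀ n, y ((X : R) ^ j • n) = 0
def Lev (j : ℕ) (y : N →+ F) : Prop := Van (j + 1) y ∧ ¬ Van j y
def M (J : ℕ) : Type := {y : N →+ F // Van J y}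

lemma Van.mono {i j : ℕ} {y : N →+ F} (h : Van i y) (hij : i ≤ j) : Van j y := fun n => by
  obtain ⟨k, rfl⟩ := Nat.exists_eq_add_of_le hij
  rw [pow_add, mul_smul, h]

instance (J : ℕ) : Finite (M J) := by
  refine Finite.of_injective (fun (y : M J) (k : Fin 3) (i : Fin J) (a : F) =>
    y.1 (Pi.single k (monomial i a))) fun y y' h => Subtype.ext ?_
  refine AddMonoidHom.functions_ext' _ _ _ fun k => Polynomial.addHom_ext fun i a => ?_
  rcases lt_or_ge i J with hi | hi
  · exact congrFun (congrFun (congrFun h k) ⟨i, hi⟩) a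
  · have e : Pi.single k (monomial i a) = (X : R) ^ i • (Pi.single k (C a) : N) := by
      rw [← Pi.single_smul, smul_eq_mul, mul_comm, C_mul_X_pow_eq_monomial]
    change y.1 (Pi.single k (monomial i a)) = y'.1 (Pi.single k (monomial i a))
    rw [e, y.2.mono hi, y'.2.mono hi]

noncomputable instance (J : ℕ) : Fintype (M J) := Fintype.ofFinite _
noncomputable instance (J : ℕ) : DecidableEq (M J) := Classical.decEq _

noncomputable def pb {J : ℕ} (l : N →ₗ[R] N) (y : M J) : M J :=
  ⟨y.1.comp l.toAddMonoidHom, fun n => by simpa using y.2 (l n)⟩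

@[simp] lemma pb_apply {J : ℕ} (l : N →ₗ[R] N) (y : M J) (n : N) : (pb l y).1 n = y.1 (l n) := rfl

lemma M.ext {J : ℕ} {y y' : M J} (h : ∀ n, y.1 n = y'.1 n) : y = y' :=
  Subtype.ext (AddMonoidHom.ext h)

lemma pb_inj {J : ℕ} (l : N ≃ₗ[R] N) : Function.Injective (pb (J := J) l) := fun y y' h =>
  M.ext fun n => by simpa using congrArg (fun y : M J => y.1 (l.symm n)) h

noncomputable def mX : N →ₗ[R] N := (X : R) • LinearMap.id

@[simp] lemma mX_apply (n : N) : mX n = (X : R) • n := rfl

lemma lev_pb {J : ℕ} (j : ℕ) (l : N ≃ₗ[R] N) (y : M J) : Lev j (pb l y).1 ↔ Lev j y.1 := by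
  have : ∀ j, Van j (pb l y).1 ↔ Van j y.1 := fun j =>
    ⟨fun h n => by simpa using h (l.symm n), fun h n => by simpa using h (l n)⟩
  simp only [Lev, this]

lemma lev_mX {J : ℕ} (j : ℕ) (y : M J) : Lev j (pb mX y).1 ↔ Lev (j + 1) y.1 := by
  have : ∀ j, Van j (pb mX y).1 ↔ Van (j + 1) y.1 := fun j => by
    simp only [Van, pb_apply, mX_apply, pow_succ', mul_smul]
  simp only [Lev, this]

lemma mX_inj {J : ℕ} :
    Function.Injective fun y : M J => (pb mX y, fun c : Fin 3 → F => y.1 (cst c)) := by
  intro y y' h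
  refine M.ext fun n => ?_
  rw [decomp n, map_add, map_add]
  exact congrArg₂ _ (congrFun (congrArg Prod.snd h) _)
    (congrArg (fun y : M J × _ => y.1.1 (dv n)) h)

noncomputable def kap (a : Fin 3 → F) : N →+ F where
  toFun n := ∑ k, a k * (n k).coeff 0
  map_zero' := by simp
  map_add' m n := by simp [mul_add, sum_add_distrib]

open Classical in
noncomputable def sec {J : ℕ} (a : Fin 3 → F) (y : M (J + 1)) : M (J + 1) :=
  if h : Van J y.1 then ⟨y.1.comp dv + kap a, fun n => by
    rw [pow_succ', mul_smul]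
    simp [dv_X, h n, kap]⟩ else y

lemma sec_mX {J : ℕ} (a : Fin 3 → F) {y : M (J + 1)} (h : Van J y.1) : pb mX (sec a y) = y :=
  M.ext fun n => by rw [pb_apply]; simp [sec, h, dv_X, kap]

lemma sec_cst {J : ℕ} (a c : Fin 3 → F) {y : M (J + 1)} (h : Van J y.1) :
    (sec a y).1 (cst c) = ∑ k, a k * c k := by
  simp [sec, h, dv_cst, kap, cst]

lemma orbit {K : Subgroup Aff} (hK : ∀ s, gen s ∈ K) {J : ℕ} {y : M (J + 1)} (h : ¬ Van J y.1) :
    ∃ g : Fin (J + 1) → Aff, (∀ m, g m ∈ K) ∧ (∀ m, (g m).n = 0) ∧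
      Function.Injective fun m => pb (g m).l y := by
  obtain ⟨i, f, hf⟩ : ∃ (i : Fin 3) (f : R), y.1 ((X : R) ^ J • Pi.single i f) ≠ 0 := by
    by_contra hc
    push Not at hc
    refine h fun n => ?_
    rw [← univ_sum_single n, smul_sum, map_sum]
    simp [hc]
  obtain ⟨k, hk⟩ := exists_ne i
  have hk' : some k ≠ some i := by simpa using hk
  have hn : ∀ f, (U i (some k) f).n = 0 := fun f => by simp [U, hk, lin]
  refine ⟨fun m => U i (some k) (X ^ m.1), fun m => U_mem hK hk' _, fun m => hn _, ?_⟩
  have key : ∀ m m' : Fin (J + 1), m < m' →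
      pb (U i (some k) (X ^ m.1)).l y ≠ pb (U i (some k) (X ^ m'.1)).l y := by
    intro m m' hm e
    have e1 := congrArg (fun y : M (J + 1) => y.1 (Pi.single k (X ^ (J - m) * f))) e
    have e2 : ∀ g x, (U i (some k) g).l x = x + Pi.single i (g * x k) := fun g x => by
      simpa [smul_def, hn, ev] using U_smul hk' g x
    simp only [pb_apply, LinearEquiv.coe_coe, e2, map_add, Pi.single_eq_same, add_right_inj,
      ← mul_assoc, ← pow_add] at e1
    have e3 : ∀ a : ℕ, (Pi.single i (X ^ a * f) : N) = (X : R) ^ a • Pi.single i f := fun a => by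
      rw [← Pi.single_smul, smul_eq_mul]
    rw [e3, e3, y.2.mono (j := m' + (J - m)) (by have := m.2; have : m.1 < m'.1 := hm; omega),
      show m + (J - m) = J by have := m.2; omega] at e1
    exact hf e1
  intro m m' e
  rcases lt_trichotomy m m' with a | a | a
  · exact absurd e (key _ _ a)
  · exact a
  · exact absurd e.symm (key _ _ a)

end Vale.Agent.P083
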