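import Mathlib

/-! Property (T) for groups generated by five elements of order 101 which pairwise generate
quotients of the Heisenberg group. -/

namespace Vale.Agent.P083

open Finset
open scoped RealInnerProductSpace

variable {G : Type} [Group G]

def Heis (x y : G) : Prop :=
  ∃ z, x * y = z * (y * x) ∧ Commute z x ∧ Commute z y ∧ z ^ 101 = 1

lemma Heis.symm {x y : G} (h : Heis x y) : Heis y x := by
  obtain ⟨z, h1, h2, h3, h4⟩ := h
  exact ⟨z⁻¹, by rw [h1, inv_mul_cancel_left], h3.inv_left, h2.inv_left,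
    by rw [inv_pow, h4, inv_one]⟩

section real

variable {E : Type} [NormedAddCommGroup E] [InnerProductSpace ℝ E] (π : G →* E →ₗ[ℝ] E)

noncomputable def av (x : G) : E →ₗ[ℝ] E := (101 : ℝ)⁻¹ • ∑ a ∈ range 101, π (x ^ a)

variable {π}

lemma av_apply (x : G) (ξ : E) : av π x ξ = (101 : ℝ)⁻¹ • ∑ a ∈ range 101, π (x ^ a) ξ := by
  simp only [av, LinearMap.smul_apply, LinearMap.sum_apply]

lemma pi_mul (g h : G) (ξ : E) : π (g * h) ξ = π g (π h ξ) := by rw [map_mul]; rfl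

lemma fix_pow {x : G} {ξ : E} (h : π x ξ = ξ) (a : ℕ) : π (x ^ a) ξ = ξ := by
  induction a with
  | zero => simp
  | succ a ih => rw [pow_succ, pi_mul, h, ih]

lemma fix_av {x : G} (hx : x ^ 101 = 1) (ξ : E) : π x (av π x ξ) = av π x ξ := by
  rw [av_apply, map_smul, map_sum]
  congr 1
  simp only [← pi_mul, ← pow_succ']
  have h1 := sum_range_succ' (fun a => π (x ^ a) ξ) 101
  rw [sum_range_succ, hx, pow_zero] at h1
  exact (add_right_cancel h1).symm

lemma av_fix {x : G} {ξ : E} (h : π x ξ = ξ) : av π x ξ = ξ := by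
  simp only [av_apply, fix_pow h, sum_const, card_range]
  rw [← Nat.cast_smul_eq_nsmul ℝ, smul_smul]
  norm_num

lemma comm_av {g x : G} (h : Commute g x) (ξ : E) : π g (av π x ξ) = av π x (π g ξ) := by
  simp only [av_apply, map_smul, map_sum, ← pi_mul, (h.pow_right _).eq]

variable (hπ : ∀ g ξ, ‖π g ξ‖ = ‖ξ‖)
include hπ

lemma inner_pi (g : G) (a b : E) : ⟪π g a, π g b⟫ = ⟪a, b⟫ :=
  (LinearIsometry.mk (π g) (hπ g)).inner_map_map a b

lemma inner_av {x : G} {r : E} (h : π x r = r) (ξ : E) : ⟪r, av π x ξ⟫ = ⟪r, ξ⟫ := by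
  have : ∀ a : ℕ, ⟪r, π (x ^ a) ξ⟫ = ⟪r, ξ⟫ := fun a => by
    rw [← inner_pi hπ (x ^ a) r ξ, fix_pow h]
  simp only [av_apply, inner_smul_right, inner_sum, this, sum_const, card_range, nsmul_eq_mul]
  ring

omit hπ in
lemma heis_pow {x y z : G} (h1 : x * y = z * (y * x)) (h2 : Commute z x) (h3 : Commute z y)
    (a : ℕ) : x ^ a * y = y * (x ^ a * z ^ a) := by
  induction a with
  | zero => simp
  | succ a ih =>
    rw [pow_succ' x, mul_assoc, ih, ← mul_assoc, h1, ← mul_assoc z, h3.eq, pow_succ' z]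
    simp only [mul_assoc]
    rw [← mul_assoc z x, h2.eq, mul_assoc, ← mul_assoc z, (h2.pow_right a).eq, mul_assoc]

omit hπ in
lemma fix_common {x y z : G} (h1 : x * y = z * (y * x)) (h2 : Commute z x) (h3 : Commute z y)
    (h4 : z ^ 101 = 1) {r : E} (hr : π y r = r) :
    π y (av π x (av π z r)) = av π x (av π z r) := by
  have hs : π y (av π z r) = av π z r := by rw [comm_av h3.symm, hr]
  have hz := fix_av (π := π) h4 r
  generalize av π z r = s at hs hz
  rw [av_apply, map_smul, map_sum]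
  congr 1
  refine sum_congr rfl fun a _ => ?_
  conv_rhs => rw [← hs, ← pi_mul, heis_pow h1 h2 h3, pi_mul, pi_mul, fix_pow hz]

lemma angle {x y : G} (h : Heis x y) (hx : x ^ 101 = 1) {r : E} (hr : π y r = r)
    (ho : ∀ u, π x u = u → π y u = u → ⟪u, r⟫ = 0) : ‖av π x r‖ ≤ ‖r‖ / 10 := by
  obtain ⟨z, h1, h2, h3, h4⟩ := h
  have k1 : ∀ a k : ℕ, ⟪π (x ^ a * z ^ (k + a)) r, r⟫ = ⟪π (x ^ a * z ^ k) r, r⟫ := by
    intro a k
    conv_rhs => rw [← hr, ← pi_mul, mul_assoc, (h3.pow_left k).eq, ← mul_assoc, heis_pow h1 h2 h3,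
      mul_assoc, pi_mul, inner_pi hπ, mul_assoc, ← pow_add, add_comm]
  have k2 : ∀ a ∈ range 100, ⟪π (x ^ (a + 1)) (av π z r), r⟫ = ⟪π (x ^ (a + 1)) r, r⟫ := by
    intro a ha
    have k3 : ∀ b k : ℕ, ⟪π (x ^ (a + 1) * z ^ (k + (a + 1) * b)) r, r⟫ =
        ⟪π (x ^ (a + 1) * z ^ k) r, r⟫ := by
      intro b k
      induction b with
      | zero => simp
      | succ b ih => rw [mul_add, mul_one, ← add_assoc, k1, ih]
    have hc : Nat.Coprime (a + 1) 101 := by
      have hp : Nat.Prime 101 := by norm_num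
      exact (Nat.coprime_of_lt_prime (Nat.succ_ne_zero a) (by simp at ha; omega) hp).symm
    obtain ⟨b, hb⟩ := Nat.exists_mul_mod_eq_one_of_coprime hc (by norm_num)
    have k4 : ∀ k : ℕ, ⟪π (x ^ (a + 1) * z ^ k) r, r⟫ = ⟪π (x ^ (a + 1)) r, r⟫ := by
      intro k
      induction k with
      | zero => simp
      | succ k ih =>
        rw [← ih, ← k3 b k, pow_add z, pow_add z, pow_eq_pow_mod ((a + 1) * b) h4, hb.2]
    simp only [av_apply, map_smul, map_sum, inner_smul_left, sum_inner, ← pi_mul, k4, sum_const,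
      card_range, nsmul_eq_mul]
    simp
  have k5 := ho _ (fix_av hx (av π z r)) (fix_common h1 h2 h3 h4 hr)
  have k6 : ⟪av π x r, r⟫ = ‖av π x r‖ ^ 2 := by
    rw [← inner_av hπ (fix_av hx r), real_inner_self_eq_norm_sq]
  have k7 : ⟪av π z r, r⟫ = ‖av π z r‖ ^ 2 := by
    rw [← inner_av hπ (fix_av h4 r), real_inner_self_eq_norm_sq]
  rw [av_apply, inner_smul_left, sum_inner, sum_range_succ', sum_congr rfl k2] at k5
  conv_lhs at k6 => rw [av_apply, inner_smul_left, sum_inner, sum_range_succ']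
  simp only [pow_zero, map_one, Module.End.one_apply, real_inner_self_eq_norm_sq, k7,
    conj_trivial] at k5 k6
  refine le_of_sq_le_sq ?_ (by positivity)
  nlinarith [sq_nonneg ‖av π z r‖, sq_nonneg ‖r‖]

lemma pair {x y : G} (h : Heis x y) (hx : x ^ 101 = 1) (hy : y ^ 101 = 1) (ξ : E) :
    -(‖ξ - av π x ξ‖ ^ 2 + ‖ξ - av π y ξ‖ ^ 2) / 18 ≤ ⟪ξ - av π x ξ, ξ - av π y ξ⟫ := by
  obtain ⟨z, h1, h2, h3, h4⟩ := id h
  have w1 := fix_av (π := π) hx (av π z (av π y ξ))
  have w2 := fix_common h1 h2 h3 h4 (fix_av (π := π) hy ξ)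
  have w3 : ∀ u, π x u = u → π y u = u → ⟪u, ξ - av π x (av π z (av π y ξ))⟫ = 0 := by
    intro u a b
    have c : π z u = u := by
      have := congrArg (fun g => π g u) h1
      simpa only [pi_mul, a, b] using this.symm
    rw [inner_sub_right, inner_av hπ a, inner_av hπ c, inner_av hπ b, sub_self]
  generalize av π x (av π z (av π y ξ)) = w at w1 w2 w3
  have e1 : ξ - av π x ξ = (ξ - w) - av π x (ξ - w) := by rw [map_sub, av_fix w1]; abel
  have e2 : ξ - av π y ξ = (ξ - w) - av π y (ξ - w) := by rw [map_sub, av_fix w2]; abel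
  rw [e1, e2]
  generalize ξ - w = η at w3
  have hq := fix_av (π := π) hx η
  have hr := fix_av (π := π) hy η
  have a1 : ⟪av π x η, η - av π x η⟫ = 0 := by rw [inner_sub_right, inner_av hπ hq, sub_self]
  have a2 : ⟪av π y η, η - av π y η⟫ = 0 := by rw [inner_sub_right, inner_av hπ hr, sub_self]
  have a3 := angle hπ h hx hr fun u a b => by rw [inner_av hπ b, w3 u a b]
  have a4 : ⟪av π x η, av π y η⟫ ≤ ‖av π x η‖ * (‖av π y η‖ / 10) := by
    rw [← inner_av hπ hq (av π y η)]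
    exact (real_inner_le_norm _ _).trans (by gcongr)
  have a5 : (η - av π x η) - (η - av π y η) = av π y η - av π x η := by abel
  generalize η - av π x η = a at *
  generalize η - av π y η = b at *
  generalize av π x η = q at *
  generalize av π y η = r at *
  have b1 := norm_sub_sq_real a b
  have b2 := norm_sub_sq_real r q
  have b3 : ‖a - b‖ ^ 2 = ⟪r, a⟫ + ⟪q, b⟫ := by
    rw [← real_inner_self_eq_norm_sq]
    nth_rewrite 1 [a5]
    simp only [inner_sub_left, inner_sub_right, a1, a2]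
    ring
  have b4 := real_inner_le_norm r a
  have b5 := real_inner_le_norm q b
  rw [← a5, real_inner_comm] at b2
  nlinarith [sq_nonneg (‖a‖ - 9 / 10 * ‖r‖), sq_nonneg (‖b‖ - 9 / 10 * ‖q‖), sq_nonneg (‖q‖ - ‖r‖)]

lemma norm_sub_av {x : G} {ξ : E} {δ : ℝ} (h : ‖π x ξ - ξ‖ ≤ δ) : ‖ξ - av π x ξ‖ ≤ 101 * δ := by
  have hδ := (norm_nonneg _).trans h
  have h1 : ∀ a : ℕ, ‖ξ - π (x ^ a) ξ‖ ≤ a * δ := by
    intro a
    induction a with
    | zero => simp
    | succ a ih =>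
      have e : ξ - π (x ^ (a + 1)) ξ = ξ - π (x ^ a) ξ - π (x ^ a) (π x ξ - ξ) := by
        rw [map_sub, pow_succ, pi_mul]; abel
      rw [e]
      refine (norm_sub_le _ _).trans ?_
      rw [hπ]; push_cast; linarith
  have e : ξ - av π x ξ = (101 : ℝ)⁻¹ • ∑ a ∈ range 101, (ξ - π (x ^ a) ξ) := by
    rw [sum_sub_distrib, smul_sub, av_apply, sum_const, card_range, ← Nat.cast_smul_eq_nsmul ℝ,
      smul_smul]
    norm_num
  have h2 : ‖∑ a ∈ range 101, (ξ - π (x ^ a) ξ)‖ ≤ ∑ a ∈ range 101, 101 * δ :=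
    norm_sum_le_of_le _ fun a ha => (h1 a).trans (mul_le_mul_of_nonneg_right
      (by exact_mod_cast (mem_range.mp ha).le) hδ)
  rw [sum_const, card_range, nsmul_eq_mul] at h2
  rw [e, norm_smul]
  norm_num at h2 ⊢
  linarith

theorem kazhdan_real [CompleteSpace E] {x : Fin 5 → G} (hx : ∀ i, x i ^ 101 = 1)
    (hh : ∀ i j, Heis (x i) (x j)) {ξ : E} {δ : ℝ} (h : ∀ i, ‖π (x i) ξ - ξ‖ ≤ δ) :
    ∃ η, (∀ i, π (x i) η = η) ∧ ‖ξ - η‖ ≤ 3030 * δ := by
  obtain ⟨Q, hQ⟩ : ∃ Q : Fin 5 → E →ₗ[ℝ] E, ∀ i η, Q i η = η - av π (x i) η :=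
    ⟨fun i => LinearMap.id - av π (x i), fun _ _ => rfl⟩
  let q : E → ℝ := fun η => ∑ i, ‖Q i η‖ ^ 2
  let M : E → E := fun η => η - (5 : ℝ)⁻¹ • ∑ i, Q i η
  have hq0 : ∀ η, 0 ≤ q η := fun η => sum_nonneg fun _ _ => sq_nonneg _
  have o1 : ∀ i η d, ⟪Q i η, Q i d⟫ = ⟪Q i η, d⟫ := by
    intro i η d
    rw [hQ i d, inner_sub_right, real_inner_comm (av π (x i) d), hQ, inner_sub_right,
      inner_av hπ (fix_av (hx i) d), sub_self, sub_zero]
  have o2 : ∀ i d, ‖Q i d‖ ≤ ‖d‖ := by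
    intro i d
    have := real_inner_le_norm (Q i d) d
    rw [← o1, real_inner_self_eq_norm_sq] at this
    rcases (norm_nonneg (Q i d)).eq_or_lt with a | a
    · rw [← a]; exact norm_nonneg _
    · nlinarith
  have g1 : ∀ η, 5 / 9 * q η ≤ ‖∑ i, Q i η‖ ^ 2 := by
    intro η
    rw [← real_inner_self_eq_norm_sq, sum_inner]
    simp only [inner_sum]
    have : ∀ i j, -(‖Q i η‖ ^ 2 + ‖Q j η‖ ^ 2) / 18 + (if i = j then 10 / 9 * ‖Q i η‖ ^ 2 else 0) ≤
        ⟪Q i η, Q j η⟫ := by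
      intro i j
      split_ifs with a
      · rw [← a, real_inner_self_eq_norm_sq]; linarith
      · rw [add_zero, hQ, hQ]; exact pair hπ (hh i j) (hx i) (hx j) η
    refine le_trans (le_of_eq ?_) (sum_le_sum fun i _ => sum_le_sum fun j _ => this i j)
    simp only [sum_add_distrib, sum_ite_eq, mem_univ, if_true, q, Fin.sum_univ_five]
    ring
  have g2 : ∀ η, ‖∑ i, Q i η‖ ^ 2 ≤ 5 * q η := by
    intro η
    have := sq_sum_le_card_mul_sum_sq (s := univ) (f := fun i => ‖Q i η‖)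
    simp only [card_univ, Fintype.card_fin, Nat.cast_ofNat] at this
    exact le_trans (by gcongr; exact norm_sum_le _ _) this
  have g3 : ∀ η, q (M η) ≤ (19 / 20) ^ 2 * q η := by
    intro η
    have := g1 η
    have e : ⟪∑ i, Q i η, ∑ i, Q i η⟫ = ‖∑ i, Q i η‖ ^ 2 := real_inner_self_eq_norm_sq _
    simp only [M, q] at this ⊢
    rw [sum_inner] at e
    generalize ∑ i, Q i η = d at *
    have k : ∀ i, ‖Q i (η - (5 : ℝ)⁻¹ • d)‖ ^ 2 ≤
        ‖Q i η‖ ^ 2 - 2 / 5 * ⟪Q i η, d⟫ + 1 / 25 * ‖d‖ ^ 2 := by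
      intro i
      rw [map_sub, map_smul, norm_sub_sq_real, inner_smul_right, o1, norm_smul]
      have : ‖Q i d‖ ^ 2 ≤ ‖d‖ ^ 2 := by gcongr; exact o2 i d
      norm_num
      nlinarith
    refine (sum_le_sum fun i _ => k i).trans ?_
    rw [sum_add_distrib, sum_sub_distrib, ← mul_sum, e]
    have := hq0 η
    simp only [q] at this
    simp only [sum_const, card_univ, Fintype.card_fin, nsmul_eq_mul, Nat.cast_ofNat]
    linarith
  have hδ := (norm_nonneg _).trans (h 0)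
  have g4 : ∀ k, q (M^[k] ξ) ≤ (303 * δ * (19 / 20) ^ k) ^ 2 := by
    intro k
    induction k with
    | zero =>
      have : q ξ ≤ ∑ _i : Fin 5, (101 * δ) ^ 2 :=
        sum_le_sum fun i _ => by gcongr; rw [hQ]; exact norm_sub_av hπ (h i)
      simp only [sum_const, card_univ, Fintype.card_fin, nsmul_eq_mul, Nat.cast_ofNat] at this
      simp only [Function.iterate_zero, id, pow_zero]
      nlinarith [sq_nonneg δ]
    | succ k ih =>
      rw [Function.iterate_succ_apply']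
      refine (g3 _).trans ((mul_le_mul_of_nonneg_left ih (by positivity)).trans (le_of_eq ?_))
      ring
  have g5 : ∀ k, dist (M^[k] ξ) (M^[k + 1] ξ) ≤ 303 / 2 * δ * (19 / 20) ^ k := by
    intro k
    rw [Function.iterate_succ_apply', dist_eq_norm]
    have := (g2 _).trans (mul_le_mul_of_nonneg_left (g4 k) (by norm_num))
    generalize M^[k] ξ = ζ at this
    simp only [M, sub_sub_cancel, norm_smul]
    refine le_of_sq_le_sq ?_ (by positivity)
    rw [mul_pow, show ‖(5 : ℝ)⁻¹‖ = 1 / 5 by norm_num]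
    nlinarith [sq_nonneg (δ * (19 / 20) ^ k)]
  obtain ⟨η, hη⟩ := cauchySeq_tendsto_of_complete (cauchySeq_of_le_geometric _ _ (by norm_num) g5)
  refine ⟨η, fun i => ?_, ?_⟩
  · have c1 : Continuous (Q i) := AddMonoidHomClass.continuous_of_bound (Q i) 1 (by simpa using o2 i)
    have c2 : Filter.Tendsto (fun k => Q i (M^[k] ξ)) Filter.atTop (nhds 0) := by
      refine squeeze_zero_norm (a := fun k => 303 * δ * (19 / 20) ^ k) (fun k => ?_) ?_
      · exact le_of_sq_le_sq ((single_le_sum (f := fun i => ‖Q i (M^[k] ξ)‖ ^ 2)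
          (fun _ _ => sq_nonneg _) (mem_univ i)).trans (g4 k)) (by positivity)
      · simpa using (tendsto_pow_atTop_nhds_zero_of_lt_one (r := (19 / 20 : ℝ)) (by norm_num)
          (by norm_num)).const_mul (303 * δ)
    have c3 : Q i η = 0 := tendsto_nhds_unique ((c1.tendsto η).comp hη) c2
    rw [hQ] at c3
    rw [sub_eq_zero.mp c3]
    exact fix_av (hx i) η
  · have := dist_le_of_le_geometric_of_tendsto₀ _ _ (by norm_num) g5 hη
    rw [dist_eq_norm] at this
    exact this.trans (le_of_eq (by ring))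

end real

theorem kazhdan {E : Type} [NormedAddCommGroup E] [InnerProductSpace ℂ E] [CompleteSpace E]
    (π : G →* E →L[ℂ] E) (hπ : ∀ g ξ, ‖π g ξ‖ ≤ ‖ξ‖) {x : Fin 5 → G} (hx : ∀ i, x i ^ 101 = 1)
    (hh : ∀ i j, Heis (x i) (x j)) {ξ : E} {δ : ℝ} (h : ∀ i, ‖π (x i) ξ - ξ‖ ≤ δ) :
    ∃ η, (∀ i, π (x i) η = η) ∧ ‖ξ - η‖ ≤ 3030 * δ := by
  let _ : InnerProductSpace ℝ E := InnerProductSpace.complexToReal
  let π' : G →* E →ₗ[ℝ] E :=
    { toFun := fun g => (π g).toLinearMap.restrictScalars ℝ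
      map_one' := by ext; simp
      map_mul' := fun g h => by ext; simp }
  refine kazhdan_real (π := π') (fun g ξ => le_antisymm (hπ g ξ) ?_) hx hh h
  have := hπ g⁻¹ (π g ξ)
  rwa [← mul_apply_eq_comp, ← map_mul, inv_mul_cancel, map_one] at this

end Vale.Agent.P083
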