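import Vale.Agent.P083.Grp

/-! Weighted composition operators, and the finite dimensional spectral gap. -/

namespace Vale.Agent.P083

set_option linter.unusedSectionVars false

open Finset
open scoped InnerProductSpace ComplexConjugate

abbrev L2 (Y H : Type) : Type := PiLp 2 fun _ : Y => H

section op

variable {Y H : Type} [Fintype Y] [NormedAddCommGroup H] [InnerProductSpace ℂ H]

noncomputable def op (f : Y → Y) (c : Y → H →L[ℂ] H) : L2 Y H →L[ℂ] L2 Y H :=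
  (PiLp.continuousLinearEquiv 2 ℂ fun _ : Y => H).symm.toContinuousLinearMap ∘L
    ContinuousLinearMap.pi fun y => c y ∘L PiLp.proj 2 (fun _ : Y => H) (f y)

@[simp] lemma op_apply (f : Y → Y) (c : Y → H →L[ℂ] H) (ξ : L2 Y H) (y : Y) :
    op f c ξ y = c y (ξ (f y)) := rfl

lemma op_norm {Z : Type} [Fintype Z] [Nonempty Z] {f : Y → Y} {c : Y → H →L[ℂ] H} (h : Y → Z)
    {C : ℝ} (hC : 0 ≤ C) (hc : ∀ y, ‖c y‖ ≤ C)
    (hi : Set.InjOn (fun y => (f y, h y)) {y | c y ≠ 0}) : ‖op f c‖ ≤ Fintype.card Z * C := by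
  classical
  refine ContinuousLinearMap.opNorm_le_bound _ (by positivity) fun ξ =>
    le_of_sq_le_sq ?_ (by positivity)
  have h1 : (1 : ℝ) ≤ Fintype.card Z := by exact_mod_cast Fintype.card_pos
  calc ‖op f c ξ‖ ^ 2 = ∑ y with c y ≠ 0, ‖c y (ξ (f y))‖ ^ 2 := by
        rw [PiLp.norm_sq_eq_of_L2, sum_filter]
        refine sum_congr rfl fun y _ => ?_
        split_ifs with a
        · rfl
        · simp [not_not.mp a]
    _ ≤ ∑ y with c y ≠ 0, (fun q : Y × Z => C ^ 2 * ‖ξ q.1‖ ^ 2) (f y, h y) :=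
        sum_le_sum fun y _ => by
          simp only [← mul_pow]; gcongr; exact (c y).le_of_opNorm_le (hc y) _
    _ ≤ ∑ q : Y × Z, C ^ 2 * ‖ξ q.1‖ ^ 2 := by
        rw [← sum_image (f := fun q : Y × Z => C ^ 2 * ‖ξ q.1‖ ^ 2) (by simpa using hi)]
        exact sum_le_sum_of_subset_of_nonneg (subset_univ _) fun _ _ _ => by positivity
    _ = Fintype.card Z * (C * ‖ξ‖) ^ 2 := by
        rw [mul_pow, PiLp.norm_sq_eq_of_L2, Fintype.sum_prod_type_right]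
        simp [mul_sum]
    _ ≤ _ := by
        rw [mul_assoc, mul_pow _ (C * ‖ξ‖)]
        gcongr
        nlinarith

lemma op_norm_inj {f : Y → Y} {c : Y → H →L[ℂ] H} {C : ℝ} (hC : 0 ≤ C) (hc : ∀ y, ‖c y‖ ≤ C)
    (hi : Set.InjOn f {y | c y ≠ 0}) : ‖op f c‖ ≤ C := by
  simpa using op_norm (fun _ => ()) hC hc fun a ha b hb e => hi ha hb (congrArg Prod.fst e)

lemma norm_smul_one_le {z : ℂ} (h : ‖z‖ ≤ 1) : ‖z • (1 : H →L[ℂ] H)‖ ≤ 1 := by
  rw [norm_smul]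
  exact mul_le_one₀ h (norm_nonneg _) ContinuousLinearMap.norm_id_le

end op

noncomputable def χ : AddChar F ℂ := ZMod.stdAddChar

lemma norm_chi (a : F) : ‖χ a‖ = 1 := AddChar.norm_apply _ _

lemma chi_inj : Function.Injective χ := ZMod.injective_stdAddChar

variable {J : ℕ} {H : Type} [NormedAddCommGroup H] [InnerProductSpace ℂ H]

/-- an operator tensored with the monomial representation -/
noncomputable def tw (g : Aff) (a : H →L[ℂ] H) : L2 (M J) H →L[ℂ] L2 (M J) H :=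
  op (pb g.l) fun y => χ (y.1 g.n) • a

lemma tw_apply (g : Aff) (a : H →L[ℂ] H) (ξ : L2 (M J) H) (y : M J) :
    tw g a ξ y = χ (y.1 g.n) • a (ξ (pb g.l y)) := rfl

lemma tw_norm (g : Aff) (a : H →L[ℂ] H) : ‖tw (J := J) g a‖ ≤ ‖a‖ :=
  op_norm_inj (norm_nonneg _) (fun y => by rw [norm_smul, norm_chi, one_mul]) (pb_inj _).injOn

lemma tw_mul (g h : Aff) (a b : H →L[ℂ] H) : tw (J := J) g a * tw h b = tw (g * h) (a * b) := by
  ext ξ y
  simp only [mul_apply_eq_comp, tw_apply, map_smul, smul_smul, mul_n, map_add,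
    AddChar.map_add_eq_mul]
  rfl

noncomputable def cj (J : ℕ) : Aff →* L2 (M J × M J) ℂ →L[ℂ] L2 (M J × M J) ℂ where
  toFun g := op (fun q => (pb g.l q.1, pb g.l q.2)) fun q => (χ (q.1.1 g.n) * conj (χ (q.2.1 g.n))) • 1
  map_one' := by ext ξ q; simp; rfl
  map_mul' g h := by
    ext ξ q
    simp only [mul_apply_eq_comp, op_apply, mul_n, map_add, AddChar.map_add_eq_mul, map_mul,
      smul_apply, one_apply_eq_self, smul_eq_mul, pb_apply, LinearEquiv.coe_coe]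
    rw [show pb (g * h).l q.1 = pb h.l (pb g.l q.1) from rfl,
      show pb (g * h).l q.2 = pb h.l (pb g.l q.2) from rfl]
    ring

lemma cj_apply (g : Aff) (ξ : L2 (M J × M J) ℂ) (y y' : M J) :
    cj J g ξ (y, y') = χ (y.1 g.n) * conj (χ (y'.1 g.n)) * ξ (pb g.l y, pb g.l y') := rfl

lemma cj_norm (g : Aff) (ξ : L2 (M J × M J) ℂ) : ‖cj J g ξ‖ ≤ ‖ξ‖ := by
  simpa using (cj J g).le_of_opNorm_le (op_norm_inj zero_le_one
    (fun q => norm_smul_one_le (by simp)) fun a _ b _ e =>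
      Prod.ext (pb_inj _ (congrArg Prod.fst e)) (pb_inj _ (congrArg Prod.snd e))) ξ

/-- the stabilizer of a vector -/
def stab {E : Type} [NormedAddCommGroup E] [InnerProductSpace ℂ E] (π : Aff →* E →L[ℂ] E) (η : E) :
    Subgroup Aff where
  carrier := {g | π g η = η}
  mul_mem' := fun {a b} (ha : π a η = η) (hb : π b η = η) => show π (a * b) η = η by
    rw [map_mul, mul_apply_eq_comp, hb, ha]
  one_mem' := show π 1 η = η by simp
  inv_mem' := fun {a} (ha : π a η = η) => show π a⁻¹ η = η by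
    conv_lhs => rw [← ha, ← mul_apply_eq_comp, ← map_mul, inv_mul_cancel, map_one]
    rfl

lemma inv_diag {η : L2 (M J × M J) ℂ} (h : ∀ s, cj J (gen s) η = η) {y y' : M J} (hy : y ≠ y') :
    η (y, y') = 0 := by
  obtain ⟨n, hn⟩ : ∃ n, y.1 n ≠ y'.1 n := by
    by_contra hc
    push Not at hc
    exact hy (M.ext hc)
  have h1 : cj J (tr n) η (y, y') = η (y, y') := by rw [tr_mem (K := stab (cj J) η) h n]
  rw [cj_apply] at h1
  change χ (y.1 n) * conj (χ (y'.1 n)) * η (y, y') = _ at h1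
  by_contra hc
  have h2 : χ (y.1 n) * conj (χ (y'.1 n)) = 1 := mul_right_cancel₀ hc (by rw [h1, one_mul])
  have h3 : conj (χ (y'.1 n)) * χ (y'.1 n) = 1 := by
    rw [Complex.conj_mul', norm_chi]; simp
  refine hn (chi_inj ?_)
  rw [← mul_one (χ (y.1 n)), ← h3, ← mul_assoc, h2, one_mul]

lemma inv_small {η : L2 (M (J + 1) × M (J + 1)) ℂ} (h : ∀ s, cj (J + 1) (gen s) η = η)
    {y : M (J + 1)} (hy : ¬ Van J y.1) : (J + 1) * ‖η (y, y)‖ ^ 2 ≤ ‖η‖ ^ 2 := by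
  obtain ⟨g, h1, h2, h3⟩ := orbit (K := stab (cj (J + 1)) η) h hy
  have h4 : ∀ m, η (pb (g m).l y, pb (g m).l y) = η (y, y) := fun m => by
    conv_rhs => rw [← h1 m, cj_apply, h2]
    simp
  calc _ = ∑ m : Fin (J + 1), (fun q => ‖η q‖ ^ 2) (pb (g m).l y, pb (g m).l y) := by simp [h4]
    _ ≤ _ := by
      rw [← sum_image (f := fun q => ‖η q‖ ^ 2) fun a _ b _ e => h3 (congrArg Prod.fst e),
        PiLp.norm_sq_eq_of_L2]
      exact sum_le_sum_of_subset_of_nonneg (subset_univ _) fun _ _ _ => sq_nonneg _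

noncomputable def tens (a : L2 (M J) ℂ) : L2 (M J × M J) ℂ :=
  WithLp.toLp 2 fun q => a q.1 * conj (a q.2)

lemma inner_tens (a b : L2 (M J) ℂ) : ⟪tens a, tens b⟫_ℂ = (‖⟪a, b⟫_ℂ‖ ^ 2 : ℝ) := by
  rw [Complex.ofReal_pow, ← Complex.mul_conj']
  simp only [PiLp.inner_apply, tens, Fintype.sum_prod_type, map_sum, sum_mul_sum]
  refine sum_congr rfl fun y _ => sum_congr rfl fun y' _ => ?_
  simp
  ring

lemma cj_tens (g : Aff) (a : L2 (M J) ℂ) : cj J g (tens a) = tens (tw g 1 a) := by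
  ext ⟨y, y'⟩
  simp [cj_apply, tens, tw_apply]
  ring

lemma exists_basis [FiniteDimensional ℂ H] (T : L2 (M J) H) :
    ∃ f : OrthonormalBasis (Fin (Module.finrank ℂ H)) ℂ H, ∀ i k, i ≠ k →
      ∑ y, conj ⟪f i, T y⟫_ℂ * ⟪f k, T y⟫_ℂ = 0 := by
  let A : H →ₗ[ℂ] H := ∑ y, (innerSL ℂ (T y)).toLinearMap.smulRight (T y)
  have hA : ∀ a b, ⟪a, A b⟫_ℂ = ∑ y, conj ⟪b, T y⟫_ℂ * ⟪a, T y⟫_ℂ := fun a b => by
    simp [A]
  have hs : A.IsSymmetric := fun a b => by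
    rw [← inner_conj_symm, hA, hA, map_sum]
    exact sum_congr rfl fun y _ => by simp [mul_comm]
  refine ⟨hs.eigenvectorBasis rfl, fun i k h => ?_⟩
  rw [← hA, hs.apply_eigenvectorBasis, inner_smul_right,
    (hs.eigenvectorBasis rfl).orthonormal.2 h.symm, mul_zero]

lemma hs_bound {ι : Type} [Fintype ι] [CompleteSpace H] (f : OrthonormalBasis ι ℂ H)
    (a : H →L[ℂ] H) (σ : ι → ℝ) :
    ∑ i, ∑ k, σ i * σ k * ‖⟪f i, a (f k)⟫_ℂ‖ ^ 2 ≤ ‖a‖ ^ 2 * ∑ i, σ i ^ 2 := by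
  have h1 : ∀ (b : H →L[ℂ] H) k, ∑ i, ‖⟪f i, b (f k)⟫_ℂ‖ ^ 2 ≤ ‖b‖ ^ 2 := fun b k => by
    rw [f.sum_sq_norm_inner_right]
    gcongr
    simpa using b.le_opNorm (f k)
  have h2 : ∀ i, ∑ k, ‖⟪f i, a (f k)⟫_ℂ‖ ^ 2 ≤ ‖a‖ ^ 2 := fun i => by
    have := h1 (ContinuousLinearMap.adjoint a) i
    simp only [ContinuousLinearMap.adjoint_inner_right, LinearIsometryEquiv.norm_map] at this
    simpa only [norm_inner_symm (f i)] using this
  calc _ ≤ ∑ i, ∑ k, (σ i ^ 2 / 2 * ‖⟪f i, a (f k)⟫_ℂ‖ ^ 2 + σ k ^ 2 / 2 * ‖⟪f i, a (f k)⟫_ℂ‖ ^ 2) :=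
        sum_le_sum fun i _ => sum_le_sum fun k _ => by
          rw [← add_mul]; gcongr; nlinarith [sq_nonneg (σ i - σ k)]
    _ ≤ ∑ i, σ i ^ 2 / 2 * ‖a‖ ^ 2 + ∑ k, σ k ^ 2 / 2 * ‖a‖ ^ 2 := by
        simp only [sum_add_distrib]
        rw [sum_comm (f := fun i k => σ k ^ 2 / 2 * _)]
        simp only [← mul_sum]
        gcongr with i _ k _
        exacts [h2 i, h1 a k]
    _ = _ := by rw [← sum_add_distrib, mul_sum]; exact sum_congr rfl fun i _ => by ring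

theorem fin_gap [FiniteDimensional ℂ H] (hJ : 2 * Module.finrank ℂ H ≤ J + 1)
    (a : Fin 5 → H →L[ℂ] H) (ha : ∀ s, ‖a s‖ ≤ 1 + 1 / 10 ^ 10) (T : L2 (M (J + 1)) H)
    (hT : ∀ y, Van J y.1 → T y = 0) :
    ∑ s, (⟪T, tw (gen s) (a s) T⟫_ℂ).re ≤ (5 - 5 / 10 ^ 9) * ‖T‖ ^ 2 := by
  have : CompleteSpace H := FiniteDimensional.complete ℂ H
  obtain ⟨f, hf⟩ := exists_basis T
  let g : _ → L2 (M (J + 1)) ℂ := fun i => WithLp.toLp 2 fun y => ⟪f i, T y⟫_ℂ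
  obtain ⟨σ, hσ⟩ : ∃ σ : _ → ℝ, ∀ i, σ i = ‖g i‖ := ⟨_, fun _ => rfl⟩
  have hσ0 : ∀ i, 0 ≤ σ i := fun i => hσ i ▸ norm_nonneg _
  obtain ⟨e, he, he1, he2, he3⟩ : ∃ e : _ → L2 (M (J + 1)) ℂ, (∀ i, g i = (σ i : ℂ) • e i) ∧
      (∀ i, ‖e i‖ ≤ 1) ∧ (∀ i k, i ≠ k → ⟪e i, e k⟫_ℂ = 0) ∧ ∀ i y, Van J y.1 → e i y = 0 := by
    refine ⟨fun i => (σ i : ℂ)⁻¹ • g i, fun i => ?_, fun i => ?_, fun i k h => ?_, fun i y h => ?_⟩
    · by_cases h : σ i = 0
      · simp [norm_eq_zero.mp ((hσ i).symm.trans h)]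
      · rw [smul_inv_smul₀ (by exact_mod_cast h)]
    · rw [norm_smul, norm_inv, Complex.norm_real, hσ, norm_norm]
      exact inv_mul_le_one_of_le₀ le_rfl (norm_nonneg _)
    · have : ⟪g i, g k⟫_ℂ = 0 := by
        rw [← hf i k h, PiLp.inner_apply]
        exact sum_congr rfl fun y _ => by simp [g, mul_comm]
      rw [inner_smul_left, inner_smul_right, this, mul_zero, mul_zero]
    · simp [g, hT y h]
  have s1 : ∑ i, σ i ^ 2 = ‖T‖ ^ 2 := by
    simp only [hσ, PiLp.norm_sq_eq_of_L2]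
    rw [sum_comm]
    exact sum_congr rfl fun y _ => f.sum_sq_norm_inner_right (T y)
  obtain ⟨X, hX⟩ : ∃ X, X = ∑ i, (σ i : ℂ) • tens (e i) := ⟨_, rfl⟩
  have s2 : ∀ u : Aff, (⟪X, cj _ u X⟫_ℂ).re = ∑ i, ∑ k, σ i * σ k * ‖⟪e i, tw u 1 (e k)⟫_ℂ‖ ^ 2 := by
    intro u
    simp only [hX, map_sum, map_smul, cj_tens, sum_inner, inner_sum, inner_smul_left,
      inner_smul_right, inner_tens, Complex.conj_ofReal, ← Complex.ofReal_mul, Complex.re_sum,
      Complex.ofReal_re, mul_sum]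
    rw [sum_comm]
    exact sum_congr rfl fun i _ => sum_congr rfl fun k _ => by ring
  have s3 : ‖X‖ ^ 2 = ‖T‖ ^ 2 := by
    have := s2 1
    rw [map_one, one_apply_eq_self, ← RCLike.re_to_complex, inner_self_eq_norm_sq] at this
    rw [this, ← s1]
    refine sum_congr rfl fun i _ => ?_
    have h1 : ∀ k, tw 1 1 (e k) = e k := fun k => by ext y; simp [tw_apply]; rfl
    simp only [h1]
    rw [sum_eq_single i (fun k _ h => by simp [he2 i k h.symm]) (by simp)]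
    have h2 : σ i = σ i * ‖e i‖ := by
      conv_lhs => rw [hσ, he, norm_smul, Complex.norm_real, Real.norm_of_nonneg (hσ0 i)]
    rw [inner_self_eq_norm_sq_to_K]
    simp only [norm_pow, RCLike.norm_ofReal, abs_norm]
    calc _ = (σ i * ‖e i‖ * ‖e i‖) ^ 2 := by ring
      _ = _ := by rw [← h2, ← h2]
  have s4 : ∀ s, (⟪T, tw (gen s) (a s) T⟫_ℂ).re ≤
      (‖a s‖ ^ 2 + 1) / 2 * ‖T‖ ^ 2 - ‖cj _ (gen s) X - X‖ ^ 2 / 4 := by
    intro s
    have h1 : ⟪T, tw (gen s) (a s) T⟫_ℂ =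
        ∑ i, ∑ k, ⟪f i, a s (f k)⟫_ℂ * ⟪g i, tw (gen s) 1 (g k)⟫_ℂ := by
      simp only [PiLp.inner_apply, mul_sum]
      rw [sum_congr rfl fun i _ => sum_comm, sum_comm]
      refine sum_congr rfl fun y _ => ?_
      rw [tw_apply, ← f.sum_repr' (T (pb (gen s).l y)), ← f.sum_inner_mul_inner]
      refine sum_congr rfl fun i _ => ?_
      simp only [map_sum, map_smul, inner_smul_right, inner_sum, mul_sum, tw_apply, g]
      refine sum_congr rfl fun k _ => ?_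
      simp
      ring
    have h2 : (⟪T, tw (gen s) (a s) T⟫_ℂ).re ≤ ∑ i, ∑ k, (σ i * σ k * ‖⟪f i, a s (f k)⟫_ℂ‖ ^ 2 +
        σ i * σ k * ‖⟪e i, tw (gen s) 1 (e k)⟫_ℂ‖ ^ 2) / 2 := by
      rw [h1, Complex.re_sum]
      refine sum_le_sum fun i _ => ?_
      rw [Complex.re_sum]
      refine sum_le_sum fun k _ => (Complex.re_le_norm _).trans ?_
      rw [he, he, map_smul, inner_smul_left, inner_smul_right]
      simp only [norm_mul, RCLike.norm_conj, Complex.norm_real, Real.norm_of_nonneg (hσ0 _)]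
      nlinarith [mul_nonneg (mul_nonneg (hσ0 i) (hσ0 k))
        (sq_nonneg (‖⟪f i, a s (f k)⟫_ℂ‖ - ‖⟪e i, tw (gen s) 1 (e k)⟫_ℂ‖))]
    simp only [← sum_div, sum_add_distrib, ← s2] at h2
    have h3 := hs_bound f (a s) σ
    have h4 := norm_sub_sq (𝕜 := ℂ) X (cj _ (gen s) X)
    have h5 : ‖cj _ (gen s) X‖ ^ 2 ≤ ‖X‖ ^ 2 := by gcongr; exact cj_norm _ _
    rw [norm_sub_rev, RCLike.re_to_complex] at h4
    rw [s1] at h3
    linarith
  have s5 : ∃ s, ‖T‖ / 6060 ≤ ‖cj _ (gen s) X - X‖ := by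
    by_contra hc
    push Not at hc
    obtain ⟨η, h1, h2⟩ := kazhdan (cj (J + 1)) cj_norm gen_101 gen_heis fun s => (hc s).le
    obtain ⟨m, hm0, hm1, hm2⟩ : ∃ m : ℝ, 0 ≤ m ∧ (J + 1) * m ^ 2 = ‖η‖ ^ 2 ∧
        ∀ y : M (J + 1), ¬ Van J y.1 → ‖η (y, y)‖ ≤ m := by
      refine ⟨√(‖η‖ ^ 2 / (J + 1)), Real.sqrt_nonneg _, ?_, fun y hy => Real.le_sqrt_of_sq_le ?_⟩
      · rw [Real.sq_sqrt (by positivity)]; field_simp
      · rw [le_div_iff₀' (by positivity)]; exact inv_small h1 hy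
    have h3 : ∀ i, ‖⟪tens (e i), η⟫_ℂ‖ ≤ m := by
      intro i
      rw [PiLp.inner_apply, Fintype.sum_prod_type]
      calc _ ≤ ∑ y, ‖e i y‖ ^ 2 * m := by
            refine norm_sum_le_of_le _ fun y _ => ?_
            rw [sum_eq_single y (fun y' _ h => by simp [inv_diag h1 h.symm]) (by simp)]
            by_cases hy : Van J y.1
            · simp [tens, he3 i y hy]
            · simp only [tens, RCLike.inner_apply, norm_mul, RCLike.norm_conj]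
              rw [mul_comm, sq]
              gcongr
              exact hm2 y hy
        _ ≤ m := by
            rw [← sum_mul, ← PiLp.norm_sq_eq_of_L2]
            exact mul_le_of_le_one_left hm0 (pow_le_one₀ (norm_nonneg _) (he1 i))
    have h4 : ‖⟪X, η⟫_ℂ‖ ≤ ∑ i, (σ i ^ 2 / 4 + m ^ 2) := by
      rw [hX, sum_inner]
      refine norm_sum_le_of_le _ fun i _ => ?_
      rw [inner_smul_left, norm_mul, RCLike.norm_conj, Complex.norm_real,
        Real.norm_of_nonneg (hσ0 i)]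
      nlinarith [mul_le_mul_of_nonneg_left (h3 i) (hσ0 i), sq_nonneg (σ i / 2 - m)]
    rw [sum_add_distrib, ← sum_div, s1, sum_const, card_univ, Fintype.card_fin, nsmul_eq_mul] at h4
    have h5 := norm_sub_sq (𝕜 := ℂ) X η
    have h6 := RCLike.re_le_norm ⟪X, η⟫_ℂ
    have h7 : (2 : ℝ) * Module.finrank ℂ H * m ^ 2 ≤ (J + 1) * m ^ 2 := by
      gcongr; exact_mod_cast hJ
    have h8 : ‖X - η‖ ^ 2 ≤ (3030 * (‖T‖ / 6060)) ^ 2 := by gcongr
    have h9 := (norm_nonneg _).trans_lt (hc 0)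
    nlinarith
  obtain ⟨s, hs⟩ := s5
  have s6 : (‖T‖ / 6060) ^ 2 ≤ ∑ s, ‖cj _ (gen s) X - X‖ ^ 2 :=
    le_trans (by gcongr) (single_le_sum (f := fun s => ‖cj _ (gen s) X - X‖ ^ 2)
      (fun _ _ => sq_nonneg _) (mem_univ s))
  have s7 : ∀ s, (‖a s‖ ^ 2 + 1) / 2 * ‖T‖ ^ 2 ≤ ((1 + 1 / 10 ^ 10) ^ 2 + 1) / 2 * ‖T‖ ^ 2 :=
    fun s => by gcongr; exact ha s
  have s8 := sum_le_sum fun s (_ : s ∈ univ) => (s4 s).trans (sub_le_sub_right (s7 s) _)
  rw [sum_sub_distrib, ← sum_div, sum_const, card_univ, Fintype.card_fin, nsmul_eq_mul] at s8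
  nlinarith [sq_nonneg ‖T‖]

end Vale.Agent.P083
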